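import Vale.Agent.Lib.P045.Check
import Mathlib.Data.Nat.Bitwise
import Mathlib.Tactic.NormNum
import Mathlib.Tactic.IntervalCases
import Mathlib.Tactic.FinCases

/-!
Facts about the bit operations used by the checker.
-/

namespace Vale.Agent.Lib.P045

theorem sel_true (x y : Nat) : sel true x y = x := rfl
theorem sel_false (x y : Nat) : sel false x y = y := rfl
theorem band_true (b : Bool) : band true b = b := rfl
theorem band_false (b : Bool) : band false b = false := rfl

theorem band_eq_true {a b : Bool} : band a b = true ↔ a = true ∧ b = true := by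
  cases a <;> simp [band_true, band_false]

theorem sel_ne_zero {b : Bool} {x : Nat} (h : sel b x 0 ≠ 0) : b = true ∧ x ≠ 0 := by
  cases b
  · exact absurd rfl h
  · exact ⟨rfl, h⟩

theorem bnot_eq_true {a : Bool} : bnot a = true ↔ a = false := by
  cases a <;> simp [bnot]

theorem land_eq (a b : Nat) : Nat.land a b = a &&& b := rfl
theorem lor_eq (a b : Nat) : Nat.lor a b = a ||| b := rfl
theorem xor_eq (a b : Nat) : Nat.xor a b = a ^^^ b := rfl
theorem shr_eq (a b : Nat) : Nat.shiftRight a b = a >>> b := rfl
theorem shl_eq (a b : Nat) : Nat.shiftLeft a b = a <<< b := rfl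
theorem pow_eq (a b : Nat) : Nat.pow a b = a ^ b := rfl
theorem mul_eq (a b : Nat) : Nat.mul a b = a * b := rfl
theorem add_eq (a b : Nat) : Nat.add a b = a + b := rfl
theorem sub_eq (a b : Nat) : Nat.sub a b = a - b := rfl

theorem beq_true_iff (a b : Nat) : Nat.beq a b = true ↔ a = b := by
  constructor
  · exact Nat.eq_of_beq_eq_true
  · rintro rfl; exact Nat.beq_refl a

theorem ble_true_iff (a b : Nat) : Nat.ble a b = true ↔ a ≤ b := by
  constructor
  · exact Nat.le_of_ble_eq_true
  · exact Nat.ble_eq_true_of_le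

theorem fld_eq (x p : Nat) : fld x p = (x >>> p) &&& 15 := rfl

theorem fld_lt (x p : Nat) : fld x p < 16 := by
  rw [fld_eq]
  exact Nat.lt_succ_of_le Nat.and_le_right

theorem testBit_15 (i : Nat) : (15 : Nat).testBit i = decide (i < 4) := by
  have : (15 : Nat) = 2 ^ 4 - 1 := by norm_num
  rw [this, Nat.testBit_two_pow_sub_one]

theorem testBit_fld (x p i : Nat) : (fld x p).testBit i = (decide (i < 4) && x.testBit (p + i)) := by
  rw [fld_eq, Nat.testBit_and, Nat.testBit_shiftRight, testBit_15, Bool.and_comm]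

/-- Coordinates as numbers below 4: the mask of a code has exactly the four bits. -/
theorem testBit_codeMask (x c v : Nat) (hc : c < 4) (hv : v < 16) :
    (codeMask x).testBit (16 * c + v) = decide (v = fld x (4 * c)) := by
  have h0 := fld_lt x 0
  have h5 := fld_lt x 4
  have h10 := fld_lt x 8
  have h15 := fld_lt x 12
  simp only [codeMask, lor_eq, pow_eq, add_eq, Nat.testBit_or, Nat.testBit_two_pow]
  interval_cases c <;> simp only [Nat.reduceMul] <;>
    rw [Bool.eq_iff_iff] <;> simp <;> omega

theorem testBit_codeMask_exists (x p : Nat) (h : (codeMask x).testBit p = true) :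
    ∃ c, c < 4 ∧ p = 16 * c + fld x (4 * c) := by
  simp only [codeMask, lor_eq, pow_eq, add_eq, Nat.testBit_or, Nat.testBit_two_pow,
    Bool.or_eq_true, decide_eq_true_eq] at h
  rcases h with h | h | h | h
  · exact ⟨0, by norm_num, by show p = 16 * 0 + fld x 0; omega⟩
  · exact ⟨1, by norm_num, by show p = 16 * 1 + fld x 4; omega⟩
  · exact ⟨2, by norm_num, by show p = 16 * 2 + fld x 8; omega⟩
  · exact ⟨3, by norm_num, by show p = 16 * 3 + fld x 12; omega⟩

theorem codeMask_lt (x : Nat) : codeMask x < 2 ^ 64 := by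
  have h0 := fld_lt x 0
  have h5 := fld_lt x 4
  have h10 := fld_lt x 8
  have h15 := fld_lt x 12
  simp only [codeMask, lor_eq, pow_eq, add_eq]
  have key : ∀ n, n < 64 → 2 ^ n < 2 ^ 64 := fun n hn => Nat.pow_lt_pow_right (by norm_num) hn
  refine Nat.or_lt_two_pow (key _ (by omega)) (Nat.or_lt_two_pow (key _ (by omega))
    (Nat.or_lt_two_pow (key _ (by omega)) (key _ (by omega))))

theorem testBit_namedMask (k c v : Nat) (hc : c < 4) (hv : v < 16) :
    (namedMask k).testBit (16 * c + v) = decide (v < fld k (4 * c)) := by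
  have h0 := fld_lt k 0
  have h5 := fld_lt k 4
  have h10 := fld_lt k 8
  have h15 := fld_lt k 12
  simp only [namedMask, lor_eq, pow_eq, sub_eq, shl_eq, Nat.testBit_or, Nat.testBit_shiftLeft,
    Nat.testBit_two_pow_sub_one]
  interval_cases c <;> simp only [Nat.reduceMul] <;>
    rw [Bool.eq_iff_iff] <;> simp <;> omega

theorem testBit_namedMask_exists (k p : Nat) (h : (namedMask k).testBit p = true) :
    ∃ c v, c < 4 ∧ v < 16 ∧ p = 16 * c + v ∧ v < fld k (4 * c) := by
  have h0 := fld_lt k 0
  have h5 := fld_lt k 4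
  have h10 := fld_lt k 8
  have h15 := fld_lt k 12
  simp only [namedMask, lor_eq, pow_eq, sub_eq, shl_eq, Nat.testBit_or, Nat.testBit_shiftLeft,
    Nat.testBit_two_pow_sub_one, Bool.or_eq_true, Bool.and_eq_true, decide_eq_true_eq] at h
  rcases h with h | h | h | h
  · exact ⟨0, p, by norm_num, by omega, by omega, by show p < fld k 0; omega⟩
  · exact ⟨1, p - 16, by norm_num, by omega, by omega, by show p - 16 < fld k 4; omega⟩
  · exact ⟨2, p - 32, by norm_num, by omega, by omega, by show p - 32 < fld k 8; omega⟩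
  · exact ⟨3, p - 48, by norm_num, by omega, by omega, by show p - 48 < fld k 12; omega⟩

theorem testBit_65535 (i : Nat) : (65535 : Nat).testBit i = decide (i < 16) := by
  have : (65535 : Nat) = 2 ^ 16 - 1 := by norm_num
  rw [this, Nat.testBit_two_pow_sub_one]

theorem testBit_fieldMask (c d w : Nat) (hw : w < 16) :
    ((65535 : Nat) <<< (16 * c)).testBit (16 * d + w) = decide (d = c) := by
  rw [Nat.testBit_shiftLeft, testBit_65535]
  rw [Bool.eq_iff_iff]
  simp only [Bool.and_eq_true, decide_eq_true_eq]
  constructor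
  · rintro ⟨h1, h2⟩
    have : 16 * c ≤ 16 * d + w := h1
    omega
  · rintro rfl
    constructor <;> omega

theorem pos_shr (c v : Nat) (hv : v < 16) : (16 * c + v) >>> 4 = c := by
  rw [Nat.shiftRight_eq_div_pow]
  norm_num
  omega

theorem testBit_assign_same (D c v : Nat) (hv : v < 16) :
    (assign D (16 * c + v)).testBit (16 * c + v) = true := by
  simp only [assign, xor_eq, land_eq, shl_eq, shr_eq, mul_eq, pow_eq, pos_shr c v hv,
    Nat.testBit_xor, Nat.testBit_and, Nat.testBit_two_pow, testBit_fieldMask c c v hv]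
  simp

theorem testBit_assign_other (D c v d w : Nat) (hv : v < 16) (hw : w < 16) (hne : d ≠ c) :
    (assign D (16 * c + v)).testBit (16 * d + w) = D.testBit (16 * d + w) := by
  have hne' : 16 * c + v ≠ 16 * d + w := by omega
  simp only [assign, xor_eq, land_eq, shl_eq, shr_eq, mul_eq, pow_eq, pos_shr c v hv,
    Nat.testBit_xor, Nat.testBit_and, Nat.testBit_two_pow, testBit_fieldMask c d w hw]
  simp [hne, hne']

theorem testBit_xor_two_pow_ne (D k p : Nat) (h : p ≠ k) :
    (Nat.xor D (Nat.pow 2 k)).testBit p = D.testBit p := by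
  simp only [xor_eq, pow_eq, Nat.testBit_xor, Nat.testBit_two_pow]
  have : ¬ k = p := fun e => h e.symm
  simp [this]

/-! ### Tables of masks -/

theorem testBit_mask64 (i : Nat) :
    (18446744073709551615 : Nat).testBit i = decide (i < 64) := by
  have : (18446744073709551615 : Nat) = 2 ^ 64 - 1 := by norm_num
  rw [this, Nat.testBit_two_pow_sub_one]

theorem testBit_maskAt (M j i : Nat) :
    (maskAt M j).testBit i = (M.testBit (64 * j + i) && decide (i < 64)) := by
  simp only [maskAt, land_eq, shr_eq, mul_eq, Nat.testBit_and, Nat.testBit_shiftRight,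
    testBit_mask64]

theorem maskTbl_succ (S n : Nat) :
    maskTbl S (n + 1) = maskTbl S n ||| (codeMask (codeAt S n) <<< (64 * n)) := rfl

theorem maskTbl_lt (S n : Nat) : maskTbl S n < 2 ^ (64 * n) := by
  induction n with
  | zero => exact Nat.one_pos
  | succ n ih =>
    rw [maskTbl_succ]
    have h1 : maskTbl S n < 2 ^ (64 * (n + 1)) :=
      lt_of_lt_of_le ih (Nat.pow_le_pow_right (by norm_num) (by omega))
    refine Nat.or_lt_two_pow h1 ?_
    rw [Nat.shiftLeft_eq]
    have h2 := codeMask_lt (codeAt S n)
    have : 2 ^ (64 * (n + 1)) = 2 ^ 64 * 2 ^ (64 * n) := by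
      rw [← Nat.pow_add]; congr 1; omega
    rw [this]
    exact Nat.mul_lt_mul_of_pos_right h2 (by positivity)

theorem testBit_lt_two_pow' {x a i : Nat} (hx : x < 2 ^ a) (hi : a ≤ i) : x.testBit i = false :=
  Nat.testBit_lt_two_pow (lt_of_lt_of_le hx (Nat.pow_le_pow_right (by norm_num) hi))

theorem maskAt_maskTbl (S n j : Nat) (hj : j < n) :
    maskAt (maskTbl S n) j = codeMask (codeAt S j) := by
  induction n with
  | zero => omega
  | succ n ih =>
    apply Nat.eq_of_testBit_eq
    intro i
    rw [testBit_maskAt, maskTbl_succ, Nat.testBit_or, Nat.testBit_shiftLeft]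
    have hlt := codeMask_lt (codeAt S j)
    by_cases hjn : j = n
    · subst hjn
      have h1 : (maskTbl S j).testBit (64 * j + i) = false :=
        testBit_lt_two_pow' (maskTbl_lt S j) (by omega)
      rw [h1]
      by_cases hi : i < 64
      · simp [hi]
      · have h2 : (codeMask (codeAt S j)).testBit i = false :=
          testBit_lt_two_pow' hlt (by omega)
        simp [hi, h2]
    · have hj' : j < n := by omega
      have := ih hj'
      rw [← this, testBit_maskAt]
      have hn : ¬ (64 * n ≤ 64 * j + i ∧ i < 64) := by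
        rintro ⟨h1, h2⟩
        have : n ≤ j := by
          by_contra hc
          have : j + 1 ≤ n := by omega
          have : 64 * (j + 1) ≤ 64 * n := Nat.mul_le_mul_left _ this
          omega
        omega
      by_cases hi : i < 64
      · have : ¬ 64 * n ≤ 64 * j + i := fun h => hn ⟨h, hi⟩
        simp [hi, this]
      · simp [hi]

/-- A mask stays present when more is added to the table. -/
theorem testBit_maskAt_mono (U X j i : Nat) (h : (maskAt U j).testBit i = true) :
    (maskAt (Nat.lor U X) j).testBit i = true := by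
  rw [testBit_maskAt] at h ⊢
  simp only [lor_eq, Nat.testBit_or]
  simp only [Bool.and_eq_true, Bool.or_eq_true] at h ⊢
  exact ⟨Or.inl h.1, h.2⟩

theorem testBit_maskAt_new (U X j i : Nat) (hi : i < 64) (h : X.testBit i = true) :
    (maskAt (Nat.lor U (Nat.shiftLeft X (Nat.mul 64 j))) j).testBit i = true := by
  rw [testBit_maskAt]
  simp only [lor_eq, shl_eq, mul_eq, Nat.testBit_or, Nat.testBit_shiftLeft]
  simp [hi, h]

/-! ### Codes -/

theorem codeAt_eq (S j : Nat) : codeAt S j = (S >>> (16 * j)) &&& 65535 := rfl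

theorem codeAt_shift_zero (S q : Nat) (hq : q < 2 ^ 16) :
    codeAt (Nat.lor (Nat.shiftLeft S 16) q) 0 = q := by
  apply Nat.eq_of_testBit_eq
  intro i
  simp only [codeAt_eq, lor_eq, shl_eq, Nat.mul_zero, Nat.shiftRight_zero, Nat.testBit_and,
    Nat.testBit_or, Nat.testBit_shiftLeft, testBit_65535]
  by_cases hi : i < 16
  · have : ¬ 16 ≤ i := by omega
    simp [hi, this]
  · have h2 : q.testBit i = false := testBit_lt_two_pow' hq (by omega)
    simp [hi, h2]

theorem codeAt_shift_succ (S q t : Nat) (hq : q < 2 ^ 16) :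
    codeAt (Nat.lor (Nat.shiftLeft S 16) q) (t + 1) = codeAt S t := by
  apply Nat.eq_of_testBit_eq
  intro i
  have h2 : q.testBit (16 * (t + 1) + i) = false := testBit_lt_two_pow' hq (by omega)
  simp only [codeAt_eq, lor_eq, shl_eq, Nat.testBit_and, Nat.testBit_or, Nat.testBit_shiftLeft,
    Nat.testBit_shiftRight, testBit_65535, h2, Bool.or_false]
  have h3 : 16 ≤ 16 * (t + 1) + i := by omega
  have h4 : 16 * (t + 1) + i - 16 = 16 * t + i := by omega
  simp [h3, h4]

theorem land_65535_lt (x : Nat) : x &&& 65535 < 2 ^ 16 :=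
  Nat.lt_succ_of_le Nat.and_le_right

end Vale.Agent.Lib.P045
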