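/-!
A certificate checker, written with explicit recursors on natural numbers so that the kernel
evaluates it quickly. Nothing here is trusted: the other files of this folder prove what a
successful run of the checker implies. No library beyond the core is imported.

Masks: a vertex is a position `p < 64` in a bit mask, with `p / 16` its coordinate and `p % 16`
its name. Edges are 16-bit codes, with a 4-bit name for each of the four coordinates.
-/

namespace Vale.Agent.Lib.P045

noncomputable section

/-- Branch on a Boolean (lazily, as the kernel evaluates by need). -/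
def sel (b : Bool) (x y : Nat) : Nat := @Bool.rec (fun _ => Nat) y x b

/-- Conjunction. -/
def band (a b : Bool) : Bool := @Bool.rec (fun _ => Bool) false b a

/-- Boolean negation. -/
def bnot (a : Bool) : Bool := @Bool.rec (fun _ => Bool) true false a

/-- Four-bit field at position `p`. -/
def fld (x p : Nat) : Nat := Nat.land (Nat.shiftRight x p) 15

/-- The code number `j` of a list of 16-bit codes. -/
def codeAt (S j : Nat) : Nat := Nat.land (Nat.shiftRight S (Nat.mul 16 j)) 65535

/-- The low `n` bits of `x`. -/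
def low (x n : Nat) : Nat := Nat.land x (Nat.sub (Nat.pow 2 n) 1)

/-- Entry `j` of a table of 64-bit masks. -/
def maskAt (M j : Nat) : Nat :=
  Nat.land (Nat.shiftRight M (Nat.mul 64 j)) 18446744073709551615

/-- The mask of an edge code: four bits, one in each coordinate field. -/
def codeMask (x : Nat) : Nat :=
  Nat.lor (Nat.pow 2 (fld x 0)) (Nat.lor (Nat.pow 2 (Nat.add 16 (fld x 4)))
    (Nat.lor (Nat.pow 2 (Nat.add 32 (fld x 8))) (Nat.pow 2 (Nat.add 48 (fld x 12)))))

/-- The names below `k c` in coordinate `c`; here `k` is packed like an edge code. -/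
def namedMask (k : Nat) : Nat :=
  Nat.lor (Nat.sub (Nat.pow 2 (fld k 0)) 1)
    (Nat.lor (Nat.shiftLeft (Nat.sub (Nat.pow 2 (fld k 4)) 1) 16)
      (Nat.lor (Nat.shiftLeft (Nat.sub (Nat.pow 2 (fld k 8)) 1) 32)
        (Nat.shiftLeft (Nat.sub (Nat.pow 2 (fld k 12)) 1) 48)))

/-- The table of masks of the first `n` codes of `S`. -/
def maskTbl (S n : Nat) : Nat :=
  @Nat.rec (fun _ => Nat) 0
    (fun j acc => Nat.lor acc (Nat.shiftLeft (codeMask (codeAt S j)) (Nat.mul 64 j))) n

/-- All of the first `n` codes of `S` use only named vertices. -/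
def wfOK (S named n : Nat) : Bool :=
  @Nat.rec (fun _ => Bool) true
    (fun j r => band (Nat.beq (Nat.land (codeMask (codeAt S j)) named) (codeMask (codeAt S j))) r) n

/-! ### Header fields -/

/-- Name counts of a header. -/
def hK (h : Nat) : Nat := Nat.land h 65535
/-- Number of edges of a header. -/
def hM (h : Nat) : Nat := Nat.land (Nat.shiftRight h 16) 31
/-- Edge codes of a lemma header. -/
def hS (h : Nat) : Nat := Nat.shiftRight h 21
/-- The distinguished edge of a hit header. -/
def hE (h : Nat) : Nat := Nat.land (Nat.shiftRight h 21) 31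
/-- The mask of a hit header. -/
def hU (h : Nat) : Nat := Nat.land (Nat.shiftRight h 26) 18446744073709551615
/-- Edge codes of a hit header. -/
def hT (h : Nat) : Nat := Nat.shiftRight h 90

/-! ### Maps between worlds -/

/-- A table of `n` names (four bits each) is injective, with all names allowed; `seen` is the
mask of names seen so far. -/
def tblOK (sc allowed n : Nat) : Nat → Nat → Bool :=
  @Nat.rec (fun _ => Nat → Nat → Bool)
    (fun _ seen => Nat.beq (Nat.land (Nat.shiftLeft seen (Nat.mul 16 sc)) allowed)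
      (Nat.shiftLeft seen (Nat.mul 16 sc)))
    (fun _ ih t seen =>
      band (Nat.beq (Nat.land seen (Nat.pow 2 (Nat.land t 15))) 0)
        (ih (Nat.shiftRight t 4) (Nat.lor seen (Nat.pow 2 (Nat.land t 15))))) n

/-- Image code of the code `x` under four tables and the four target shifts. -/
def img (t0 t1 t2 t3 s0 s1 s2 s3 x : Nat) : Nat :=
  Nat.lor (Nat.shiftLeft (fld t0 (Nat.mul 4 (fld x 0))) s0)
    (Nat.lor (Nat.shiftLeft (fld t1 (Nat.mul 4 (fld x 4))) s1)
      (Nat.lor (Nat.shiftLeft (fld t2 (Nat.mul 4 (fld x 8))) s2)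
        (Nat.shiftLeft (fld t3 (Nat.mul 4 (fld x 12))) s3)))

/-- Each of the `n` codes of `S'` maps to a listed code. Targets are read from the stream `s`;
the result is the rest of the stream, or zero on failure. -/
def edgesOK (T lim t0 t1 t2 t3 s0 s1 s2 s3 S' n : Nat) : Nat → Nat :=
  @Nat.rec (fun _ => Nat → Nat) (fun s => s)
    (fun j ih s =>
      sel (band (Nat.ble (Nat.land s 31) lim)
            (Nat.beq (img t0 t1 t2 t3 s0 s1 s2 s3 (codeAt S' j)) (codeAt T (Nat.land s 31))))
        (ih (Nat.shiftRight s 5)) 0) n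

/-- Target coordinates from the packed map `p`. -/
def pm0 (p : Nat) : Nat := Nat.land p 3
/-- Target coordinates from the packed map `p`. -/
def pm1 (p : Nat) : Nat := Nat.land (Nat.shiftRight p 2) 3
/-- Target coordinates from the packed map `p`. -/
def pm2 (p : Nat) : Nat := Nat.land (Nat.shiftRight p 4) 3
/-- Target coordinates from the packed map `p`. -/
def pm3 (p : Nat) : Nat := Nat.land (Nat.shiftRight p 6) 3

/-- The four target coordinates are distinct. -/
def permOK (p : Nat) : Bool :=
  Nat.beq (Nat.lor (Nat.pow 2 (pm0 p)) (Nat.lor (Nat.pow 2 (pm1 p))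
    (Nat.lor (Nat.pow 2 (pm2 p)) (Nat.pow 2 (pm3 p))))) 15

/-- Stream after the first table. -/
def rst1 (k' s : Nat) : Nat := Nat.shiftRight s (Nat.mul 4 (fld k' 0))
/-- Stream after the second table. -/
def rst2 (k' s : Nat) : Nat := Nat.shiftRight (rst1 k' s) (Nat.mul 4 (fld k' 4))
/-- Stream after the third table. -/
def rst3 (k' s : Nat) : Nat := Nat.shiftRight (rst2 k' s) (Nat.mul 4 (fld k' 8))
/-- Stream after the fourth table. -/
def rst4 (k' s : Nat) : Nat := Nat.shiftRight (rst3 k' s) (Nat.mul 4 (fld k' 12))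
/-- The first table. -/
def tab0 (k' s : Nat) : Nat := low s (Nat.mul 4 (fld k' 0))
/-- The second table. -/
def tab1 (k' s : Nat) : Nat := low (rst1 k' s) (Nat.mul 4 (fld k' 4))
/-- The third table. -/
def tab2 (k' s : Nat) : Nat := low (rst2 k' s) (Nat.mul 4 (fld k' 8))
/-- The fourth table. -/
def tab3 (k' s : Nat) : Nat := low (rst3 k' s) (Nat.mul 4 (fld k' 12))

/-- Check a map from a child world (name counts `k'`, `n` codes `S'`) into a world with allowed
names `allowed` and codes `T` up to index `lim`, reading from the stream `s`. The result is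
the rest of the stream, zero on failure. -/
def mapCheck (T lim allowed k' n S' p s : Nat) : Nat :=
  sel (band (permOK p)
      (band (tblOK (pm0 p) allowed (fld k' 0) (tab0 k' s) 0)
      (band (tblOK (pm1 p) allowed (fld k' 4) (tab1 k' s) 0)
      (band (tblOK (pm2 p) allowed (fld k' 8) (tab2 k' s) 0)
      (tblOK (pm3 p) allowed (fld k' 12) (tab3 k' s) 0)))))
    (edgesOK T lim (tab0 k' s) (tab1 k' s) (tab2 k' s) (tab3 k' s)
      (Nat.mul 4 (pm0 p)) (Nat.mul 4 (pm1 p)) (Nat.mul 4 (pm2 p)) (Nat.mul 4 (pm3 p))
      S' n (rst4 k' s))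
    0

/-! ### The decision tree of a lemma -/

/-- Keep in `D` only the bit `k` of the coordinate field of `k`. -/
def assign (D k : Nat) : Nat :=
  Nat.xor D (Nat.xor (Nat.land D (Nat.shiftLeft 65535 (Nat.mul 16 (Nat.shiftRight k 4))))
    (Nat.pow 2 k))

/-- A split on two disjoint edges, read from the stream. -/
def splitStep (Sm m : Nat) (ih : Nat → Nat → Nat → Nat) (s D : Nat) : Nat :=
  sel (band (Nat.ble (Nat.succ (Nat.land s 31)) m)
      (band (Nat.ble (Nat.succ (Nat.land (Nat.shiftRight s 5) 31)) m)
      (Nat.beq (Nat.land (maskAt Sm (Nat.land s 31)) (maskAt Sm (Nat.land (Nat.shiftRight s 5) 31))) 0)))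
    (ih (Nat.shiftRight s 10) D
      (Nat.land (Nat.lor (maskAt Sm (Nat.land s 31)) (maskAt Sm (Nat.land (Nat.shiftRight s 5) 31))) D))
    0

/-- A split on the name in coordinate `s % 4`. -/
def enumStep (ih : Nat → Nat → Nat → Nat) (s D : Nat) : Nat :=
  ih (Nat.shiftRight s 2) D (Nat.land D (Nat.shiftLeft 65535 (Nat.mul 16 (Nat.land s 3))))

/-- Closing by a table entry that the new edge must hit. -/
def hintStep (Us nH s D : Nat) : Nat :=
  sel (band (Nat.ble (Nat.succ (Nat.land s 31)) nH) (Nat.beq (Nat.land (maskAt Us (Nat.land s 31)) D) 0))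
    (Nat.shiftRight s 5) 0

/-- Closing by a lemma about a child world, with the pattern `q`, after a check of the lemma
number `j` against the current number `i`. -/
def arcStep (tbl : Nat → Nat) (i S m named s D : Nat) : Nat :=
  sel (band (Nat.ble (Nat.succ (Nat.land (Nat.shiftRight s 16) 262143)) i)
        (Nat.beq (codeMask (Nat.land s 65535)) D))
    (mapCheck (Nat.lor (Nat.shiftLeft S 16) (Nat.land s 65535)) m (Nat.lor named D)
      (hK (tbl (Nat.land (Nat.shiftRight s 16) 262143)))
      (hM (tbl (Nat.land (Nat.shiftRight s 16) 262143)))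
      (hS (tbl (Nat.land (Nat.shiftRight s 16) 262143)))
      (Nat.land (Nat.shiftRight s 34) 255) (Nat.shiftRight s 42))
    0

/-- One node of the decision tree. -/
def nodeStep (tbl : Nat → Nat) (i S m named Sm Us nH : Nat) (ih : Nat → Nat → Nat → Nat)
    (s D : Nat) : Nat :=
  sel (Nat.beq (Nat.land s 1) 0)
    (sel (Nat.beq (Nat.land s 2) 0)
      (splitStep Sm m ih (Nat.shiftRight s 2) D)
      (enumStep ih (Nat.shiftRight s 2) D))
    (sel (Nat.beq (Nat.land s 2) 0)
      (arcStep tbl i S m named (Nat.shiftRight s 2) D)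
      (hintStep Us nH (Nat.shiftRight s 2) D))

/-- Continue after a child returned: pass on a failure. -/
def goAfter (ih : Nat → Nat → Nat → Nat) (s D W : Nat) : Nat :=
  sel (Nat.beq s 0) 0 (ih s D W)

/-- The loop over the bits of `W`, with the decision tree inside; the stream lists the bits. -/
def go (tbl : Nat → Nat) (i S m named Sm Us nH fuel : Nat) : Nat → Nat → Nat → Nat :=
  @Nat.rec (fun _ => Nat → Nat → Nat → Nat) (fun _ _ _ => 0)
    (fun _ ih s D W =>
      sel (Nat.beq W 0) s
        (goAfter ih
          (nodeStep tbl i S m named Sm Us nH ih (Nat.shiftRight s 6) (assign D (Nat.land s 63)))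
          (Nat.xor D (Nat.pow 2 (Nat.land s 63)))
          (Nat.xor W (Nat.pow 2 (Nat.land s 63))))) fuel

/-! ### The hints of a lemma -/

/-- Image mask of a field `u` of a hit mask with `n` names under a table `t`, to coordinate `sc`. -/
def uLoop (t sc u n : Nat) : Nat → Nat :=
  @Nat.rec (fun _ => Nat → Nat) (fun acc => acc)
    (fun v ih acc =>
      ih (sel (Nat.beq (Nat.land (Nat.shiftRight u v) 1) 0) acc
        (Nat.lor acc (Nat.pow 2 (Nat.add (Nat.mul 16 sc) (fld t (Nat.mul 4 v))))))) n

/-- Field number `c` of a mask. -/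
def mfield (U c : Nat) : Nat := Nat.land (Nat.shiftRight U (Nat.mul 16 c)) 65535

/-- Image of a whole hit mask, for a header with name counts `k'`. -/
def uImage (U k' s p : Nat) : Nat :=
  uLoop (tab3 k' s) (pm3 p) (mfield U 3) (fld k' 12)
    (uLoop (tab2 k' s) (pm2 p) (mfield U 2) (fld k' 8)
      (uLoop (tab1 k' s) (pm1 p) (mfield U 1) (fld k' 4)
        (uLoop (tab0 k' s) (pm0 p) (mfield U 0) (fld k' 0) 0)))

/-- Mask of the image of the distinguished edge of a hit header. -/
def eImg (h' p s : Nat) : Nat :=
  codeMask (img (tab0 (hK h') s) (tab1 (hK h') s) (tab2 (hK h') s) (tab3 (hK h') s)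
    (Nat.mul 4 (pm0 p)) (Nat.mul 4 (pm1 p)) (Nat.mul 4 (pm2 p)) (Nat.mul 4 (pm3 p))
    (codeAt (hT h') (hE h')))

/-- One hint of a lemma: a hit header `h'` with a map into the lemma world. -/
def hintUse2 (named D0 h' p s : Nat) (j : Nat) (ih : Nat → Nat → Nat) (s' Us : Nat) : Nat :=
  sel (band (bnot (Nat.beq s' 0))
      (band (Nat.beq (Nat.land (eImg h' p s) named) (eImg h' p s))
      (band (bnot (Nat.beq (Nat.land (eImg h' p s) D0) (eImg h' p s)))
      (Nat.beq (Nat.land (uImage (hU h') (hK h') s p) named) (uImage (hU h') (hK h') s p)))))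
    (ih s' (Nat.lor Us (Nat.shiftLeft (uImage (hU h') (hK h') s p) (Nat.mul 64 j))))
    0

/-- One hint of a lemma. -/
def hintUse (htbl : Nat → Nat) (hN S m named D0 s : Nat) (j : Nat) (ih : Nat → Nat → Nat)
    (Us : Nat) : Nat :=
  sel (Nat.ble (Nat.succ (Nat.land s 65535)) hN)
    (hintUse2 named D0 (htbl (Nat.land s 65535)) (Nat.land (Nat.shiftRight s 16) 255)
      (Nat.shiftRight s 24) j ih
      (mapCheck S (Nat.sub m 1) named (hK (htbl (Nat.land s 65535)))
        (hM (htbl (Nat.land s 65535))) (hT (htbl (Nat.land s 65535)))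
        (Nat.land (Nat.shiftRight s 16) 255) (Nat.shiftRight s 24))
      Us)
    0

/-- All hints of a lemma, followed by the decision tree with its first node. -/
def hintsLoop (tbl htbl : Nat → Nat) (hN i S m named Sm D0 nH fuel n : Nat) : Nat → Nat → Nat :=
  @Nat.rec (fun _ => Nat → Nat → Nat)
    (fun s Us => nodeStep tbl i S m named Sm Us nH (go tbl i S m named Sm Us nH fuel) s D0)
    (fun j ih s Us => hintUse htbl hN S m named D0 s j ih Us) n

/-- Remove `n` listed vertices from `D`, after checking that they are named. -/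
def cRemove (named n : Nat) : Nat → Nat → Nat :=
  @Nat.rec (fun _ => Nat → Nat → Nat) (fun _ D => D)
    (fun _ ih s D =>
      sel (Nat.beq (Nat.land named (Nat.pow 2 (Nat.land s 63))) 0) 0
        (ih (Nat.shiftRight s 6) (Nat.xor D (Nat.pow 2 (Nat.land s 63))))) n

/-- The check of a lemma with all header fields at hand. -/
def lemma3 (tbl htbl : Nat → Nat) (hN i k S m named Sm s : Nat) : Nat :=
  sel (band (Nat.ble 1 m) (band (wfOK S named m) (Nat.ble (Nat.land s 7) 6)))
    (sel (Nat.beq (cRemove named (Nat.land s 7) (Nat.shiftRight s 3)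
          (Nat.lor named (codeMask k))) 0) 0
      (hintsLoop tbl htbl hN i S m named Sm
        (cRemove named (Nat.land s 7) (Nat.shiftRight s 3) (Nat.lor named (codeMask k)))
        (Nat.land (Nat.shiftRight s (Nat.add 3 (Nat.mul 6 (Nat.land s 7)))) 31)
        1048575
        (Nat.land (Nat.shiftRight s (Nat.add 3 (Nat.mul 6 (Nat.land s 7)))) 31)
        (Nat.shiftRight s (Nat.add 8 (Nat.mul 6 (Nat.land s 7))))
        0))
    0

/-- The check of lemma number `i` with the stream `s`: nonzero on success. -/
def lemmaCheck (tbl htbl : Nat → Nat) (hN i s : Nat) : Nat :=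
  lemma3 tbl htbl hN i (hK (tbl i)) (hS (tbl i)) (hM (tbl i)) (namedMask (hK (tbl i)))
    (maskTbl (hS (tbl i)) (hM (tbl i))) s

/-! ### Hit headers -/

/-- One node of the hit tree: a token is an edge not hit so far, or `31` when all of the budget
was spent within the mask `U`. -/
def hitNode (Tm m Em U : Nat) (ih : Nat → Nat → Nat → Nat → Nat) (s X b : Nat) : Nat :=
  sel (Nat.beq (Nat.land s 31) 31)
    (sel (band (Nat.beq b 0) (Nat.beq (Nat.land X U) X)) (Nat.shiftRight s 5) 0)
    (sel (band (Nat.ble (Nat.succ (Nat.land s 31)) m)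
        (band (bnot (Nat.beq (maskAt Tm (Nat.land s 31)) Em))
          (Nat.beq (Nat.land (maskAt Tm (Nat.land s 31)) X) 0)))
      (sel (Nat.beq b 0) (Nat.shiftRight s 5)
        (ih (Nat.shiftRight s 5) X b
          (Nat.xor (maskAt Tm (Nat.land s 31)) (Nat.land (maskAt Tm (Nat.land s 31)) Em))))
      0)

/-- Continue after a child returned: pass on a failure. -/
def hitAfter (ih : Nat → Nat → Nat → Nat → Nat) (s X b W : Nat) : Nat :=
  sel (Nat.beq s 0) 0 (ih s X b W)

/-- The loop over the options of a node of the hit tree; the stream lists the options. -/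
def hitGo (Tm m Em U fuel : Nat) : Nat → Nat → Nat → Nat → Nat :=
  @Nat.rec (fun _ => Nat → Nat → Nat → Nat → Nat) (fun _ _ _ _ => 0)
    (fun _ ih s X b W =>
      sel (Nat.beq W 0) s
        (hitAfter ih
          (hitNode Tm m Em U ih (Nat.shiftRight s 6) (Nat.lor X (Nat.pow 2 (Nat.land s 63)))
            (Nat.sub b 1))
          X b (Nat.xor W (Nat.pow 2 (Nat.land s 63))))) fuel

/-- The check of a hit header `h` with the stream `s`: nonzero on success. -/
def hitCheck2 (h Tm s : Nat) : Nat :=
  sel (band (Nat.ble (Nat.succ (hE h)) (hM h))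
      (band (wfOK (hT h) (namedMask (hK h)) (hM h))
        (Nat.beq (Nat.land (hU h) (namedMask (hK h))) (hU h))))
    (hitNode Tm (hM h) (maskAt Tm (hE h)) (hU h)
      (hitGo Tm (hM h) (maskAt Tm (hE h)) (hU h) 1048575) s 0 6)
    0

/-- The check of a hit header `h` with the stream `s`: nonzero on success. -/
def hitCheck (h s : Nat) : Nat := hitCheck2 h (maskTbl (hT h) (hM h)) s

/-! ### Data -/

/-- Binary trees of numbers. -/
inductive T : Type
  | leaf (n : Nat) : T
  | node (a b : T) : T

/-- Lookup by the bits of the index, lowest first. -/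
def T.get (t : T) : Nat → Nat :=
  @T.rec (fun _ => Nat → Nat) (fun n _ => n)
    (fun _ _ iha ihb i =>
      sel (Nat.beq (Nat.land i 1) 0) (iha (Nat.shiftRight i 1)) (ihb (Nat.shiftRight i 1))) t

/-- Apply a nonzero-on-success check at all leaves, in order from index `i`; the result is the
next index, or zero on failure. -/
def T.run (f : Nat → Nat → Nat) (t : T) : Nat → Nat :=
  @T.rec (fun _ => Nat → Nat)
    (fun n i => sel (Nat.beq (f i n) 0) 0 (Nat.succ i))
    (fun _ _ iha ihb i => sel (Nat.beq (iha i) 0) 0 (ihb (iha i))) t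

/-- The run of a check over a data tree, from index `a`, ends at the nonzero index `b`. -/
def chk (f : Nat → Nat → Nat) (t : T) (a b : Nat) : Bool :=
  band (Nat.ble 1 b) (Nat.beq (T.run f t a) b)

end

end Vale.Agent.Lib.P045
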