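import Mathlib.Data.Finset.Card
import Mathlib.Data.Finset.Image
import Mathlib.Logic.Equiv.Defs

/-!
Critical counterexamples to the statement: every 4-partite 4-uniform hypergraph
without 3 pairwise disjoint edges has a vertex cover of size at most 6.
-/

namespace Vale.Agent.Lib.P045

universe u

open Classical

/-- Two tuples are disjoint when they differ in each coordinate. -/
def Disj {α : Type u} (a b : Fin 4 → α) : Prop := ∀ i, a i ≠ b i

/-- A critical counterexample: no three pairwise disjoint edges, no cover of size at most six,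
and for each edge `e` a set of at most six vertices avoiding `e` and meeting every other edge. -/
structure Crit {α : Type u} (H : (Fin 4 → α) → Prop) : Prop where
  nu : ∀ a b c, H a → H b → H c → Disj a b → Disj a c → Disj b c → False
  noCover : ∀ C : Finset (Fin 4 × α), C.card ≤ 6 → ∃ e, H e ∧ ∀ i, (i, e i) ∉ C
  crit : ∀ e, H e → ∃ C : Finset (Fin 4 × α), C.card ≤ 6 ∧ (∀ i, (i, e i) ∉ C) ∧
    ∀ f, H f → f ≠ e → ∃ i, (i, f i) ∈ C

/-- Relabel the coordinates of a family of tuples. -/
def permH {α : Type u} (σ : Equiv.Perm (Fin 4)) (H : (Fin 4 → α) → Prop) : (Fin 4 → α) → Prop :=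
  fun f => H (fun i => f (σ.symm i))

theorem permH_comp {α : Type u} (σ : Equiv.Perm (Fin 4)) (H : (Fin 4 → α) → Prop)
    (g : Fin 4 → α) (hg : H g) : permH σ H (fun i => g (σ i)) := by
  show H (fun i => g (σ (σ.symm i)))
  simpa using hg

theorem Crit.perm {α : Type u} {H : (Fin 4 → α) → Prop} (h : Crit H) (σ : Equiv.Perm (Fin 4)) :
    Crit (permH σ H) := by
  have key : ∀ C : Finset (Fin 4 × α), (C.image (fun p => (σ p.1, p.2))).card ≤ C.card :=
    fun C => Finset.card_image_le
  refine ⟨?_, ?_, ?_⟩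
  · intro a b c ha hb hc hab hac hbc
    refine h.nu _ _ _ ha hb hc ?_ ?_ ?_
    · intro i; exact hab _
    · intro i; exact hac _
    · intro i; exact hbc _
  · intro C hC
    obtain ⟨e, he, hav⟩ := h.noCover (C.image (fun p => (σ p.1, p.2))) ((key C).trans hC)
    refine ⟨fun i => e (σ i), permH_comp σ H e he, ?_⟩
    intro i hi
    apply hav (σ i)
    exact Finset.mem_image.2 ⟨(i, e (σ i)), hi, rfl⟩
  · intro e he
    obtain ⟨C, hC, hav, hcov⟩ := h.crit _ he
    refine ⟨C.image (fun p => (σ.symm p.1, p.2)), Finset.card_image_le.trans hC, ?_, ?_⟩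
    · intro i hi
      obtain ⟨⟨j, x⟩, hj, hjj⟩ := Finset.mem_image.1 hi
      simp only [Prod.mk.injEq] at hjj
      obtain ⟨h1, h2⟩ := hjj
      apply hav j
      have : j = σ i := by rw [← h1]; simp
      subst this
      simp only [Equiv.symm_apply_apply]
      rw [← h2] ; exact hj
    · intro f hf hne
      have hne' : (fun i => f (σ.symm i)) ≠ (fun i => e (σ.symm i)) := by
        intro heq
        apply hne
        funext i
        have := congrFun heq (σ i)
        simpa using this
      obtain ⟨i, hi⟩ := hcov _ hf hne'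
      refine ⟨σ.symm i, Finset.mem_image.2 ⟨(i, f (σ.symm i)), hi, rfl⟩⟩

/-- Every counterexample contains a critical one. -/
theorem exists_crit_aux {α : Type u} (n : Nat) : ∀ (H : Finset (Fin 4 → α)), H.card = n →
    (∀ a ∈ H, ∀ b ∈ H, ∀ c ∈ H, (∀ i, a i ≠ b i) → (∀ i, a i ≠ c i) → (∀ i, b i ≠ c i) → False) →
    (∀ C : Finset (Fin 4 × α), C.card ≤ 6 → ∃ e ∈ H, ∀ i, (i, e i) ∉ C) →
    ∃ H' : (Fin 4 → α) → Prop, Crit H' := by
  induction n using Nat.strong_induction_on with
  | _ n ih =>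
  intro H hn hν hno
  by_cases hex : ∃ e ∈ H, ∀ C : Finset (Fin 4 × α), C.card ≤ 6 →
      ∃ f ∈ H.erase e, ∀ i, (i, f i) ∉ C
  · obtain ⟨e, he, hno'⟩ := hex
    refine ih (H.erase e).card ?_ (H.erase e) rfl ?_ hno'
    · rw [← hn]; exact Finset.card_erase_lt_of_mem he
    · intro a ha b hb c hc
      exact hν a (Finset.mem_of_mem_erase ha) b (Finset.mem_of_mem_erase hb) c
        (Finset.mem_of_mem_erase hc)
  · have hex' : ∀ e ∈ H, ∃ C : Finset (Fin 4 × α), C.card ≤ 6 ∧
        ∀ f ∈ H.erase e, ∃ i, (i, f i) ∈ C := by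
      intro e he
      by_contra hcon
      apply hex
      refine ⟨e, he, fun C hC => ?_⟩
      by_contra hcon2
      apply hcon
      refine ⟨C, hC, fun f hf => ?_⟩
      by_contra hcon3
      apply hcon2
      exact ⟨f, hf, fun i hi => hcon3 ⟨i, hi⟩⟩
    refine ⟨fun f => f ∈ H, ?_, ?_, ?_⟩
    · intro a b c ha hb hc hab hac hbc
      exact hν a ha b hb c hc hab hac hbc
    · intro C hC
      obtain ⟨e, he, h⟩ := hno C hC
      exact ⟨e, he, h⟩
    · intro e he
      obtain ⟨C, hC, hcov⟩ := hex' e he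
      refine ⟨C, hC, ?_, ?_⟩
      · intro i hi
        obtain ⟨e', he', hav⟩ := hno C hC
        by_cases h' : e' = e
        · subst h'; exact hav i hi
        · obtain ⟨j, hj⟩ := hcov e' (Finset.mem_erase.2 ⟨h', he'⟩)
          exact hav j hj
      · intro f hf hne
        exact hcov f (Finset.mem_erase.2 ⟨hne, hf⟩)

theorem exists_crit {α : Type u} (H : Finset (Fin 4 → α))
    (hν : ∀ a ∈ H, ∀ b ∈ H, ∀ c ∈ H, (∀ i, a i ≠ b i) → (∀ i, a i ≠ c i) → (∀ i, b i ≠ c i) → False)
    (hno : ∀ C : Finset (Fin 4 × α), C.card ≤ 6 → ∃ e ∈ H, ∀ i, (i, e i) ∉ C) :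
    ∃ H' : (Fin 4 → α) → Prop, Crit H' :=
  exists_crit_aux H.card H rfl hν hno

end Vale.Agent.Lib.P045
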