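import Vale.Agent.Lib.P045.Check

/-!
Ranges of successful checks. This file needs nothing but the core library, so that the data
modules stay cheap to load.
-/

namespace Vale.Agent.Lib.P045

/-- All checks from `a` below `b` succeed for some data. -/
def RangeOK (f : Nat → Nat → Nat) (a b : Nat) : Prop := ∀ j, a ≤ j → j < b → ∃ n, f j n ≠ 0

theorem band_and {a b : Bool} (h : band a b = true) : a = true ∧ b = true := by
  cases a
  · exact Bool.noConfusion h
  · exact ⟨rfl, h⟩

theorem T.run_leaf (f : Nat → Nat → Nat) (n i : Nat) :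
    T.run f (T.leaf n) i = sel (Nat.beq (f i n) 0) 0 (Nat.succ i) := rfl

theorem T.run_node (f : Nat → Nat → Nat) (a b : T) (i : Nat) :
    T.run f (T.node a b) i = sel (Nat.beq (T.run f a i) 0) 0 (T.run f b (T.run f a i)) := rfl

theorem sel_false' (x y : Nat) : sel false x y = y := rfl
theorem sel_true' (x y : Nat) : sel true x y = x := rfl

theorem T.run_spec (f : Nat → Nat → Nat) (t : T) : ∀ i, T.run f t i ≠ 0 →
    i ≤ T.run f t i ∧ ∀ j, i ≤ j → j < T.run f t i → ∃ n, f j n ≠ 0 := by
  induction t with
  | leaf n =>
    intro i h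
    rw [T.run_leaf] at h ⊢
    cases hb : Nat.beq (f i n) 0
    · rw [sel_false']
      refine ⟨Nat.le_succ i, ?_⟩
      intro j h1 h2
      have : j = i := by
        have : j < i + 1 := h2
        omega
      subst this
      refine ⟨n, ?_⟩
      intro he
      rw [he] at hb
      simp at hb
    · rw [hb, sel_true'] at h
      exact absurd rfl h
  | node a b iha ihb =>
    intro i h
    rw [T.run_node] at h ⊢
    cases hb : Nat.beq (T.run f a i) 0
    · rw [hb, sel_false'] at h
      rw [sel_false']
      have ha : T.run f a i ≠ 0 := by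
        intro he
        rw [he] at hb
        simp at hb
      obtain ⟨a1, a2⟩ := iha i ha
      obtain ⟨b1, b2⟩ := ihb _ h
      refine ⟨Nat.le_trans a1 b1, ?_⟩
      intro j h1 h2
      by_cases hj : j < T.run f a i
      · exact a2 j h1 hj
      · exact b2 j (by omega) h2
    · rw [hb, sel_true'] at h
      exact absurd rfl h

theorem rangeOK_of_chk {f : Nat → Nat → Nat} {t : T} {a b : Nat}
    (h : chk f t a b = true) : RangeOK f a b := by
  obtain ⟨h1, h2⟩ := band_and h
  have hb : 1 ≤ b := Nat.le_of_ble_eq_true h1
  have h3 : T.run f t a = b := Nat.eq_of_beq_eq_true h2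
  subst h3
  exact (T.run_spec f t a (by omega)).2

theorem RangeOK.trans {f : Nat → Nat → Nat} {a b c : Nat} (h1 : RangeOK f a b) (h2 : RangeOK f b c) :
    RangeOK f a c := by
  intro j h3 h4
  by_cases hj : j < b
  · exact h1 j h3 hj
  · exact h2 j (by omega) h4

end Vale.Agent.Lib.P045
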