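import Vale.Agent.Lib.P045.LemmaS
import Vale.Agent.Lib.P045.Sum

/-!
Soundness of the check of a hit header, and of the runs over data trees.
-/

namespace Vale.Agent.Lib.P045

universe u

section Hit

variable {α : Type u} {φ : Nat → Nat → α} {k : Nat}

theorem vtx_pos (φ : Nat → Nat → α) (c : Fin 4) {v : Nat} (hv : v < 16) :
    vtx φ (16 * c.val + v) = (c, φ c v) := by
  have e1 : (16 * c.val + v) / 16 = c.val := by omega
  have e2 : (16 * c.val + v) % 16 = v := by omega
  unfold vtx
  rw [e1, e2]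
  congr 1
  apply Fin.ext
  simp [Fin.ofNat, Nat.mod_eq_of_lt c.isLt]

theorem vtx_inj (hinj : InjOn φ k) {p q : Nat} (hp : (namedMask k).testBit p = true)
    (hq : (namedMask k).testBit q = true) (he : vtx φ p = vtx φ q) : p = q := by
  obtain ⟨c, v, hc, hv, rfl, hvk⟩ := testBit_namedMask_exists _ _ hp
  obtain ⟨d, w, hd, hw, rfl, hwk⟩ := testBit_namedMask_exists _ _ hq
  have h1 := vtx_pos φ ⟨c, hc⟩ hv
  have h2 := vtx_pos φ ⟨d, hd⟩ hw
  simp only at h1 h2
  rw [h1, h2] at he
  simp only [Prod.mk.injEq, Fin.mk.injEq] at he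
  obtain ⟨rfl, he⟩ := he
  have := hinj ⟨c, hc⟩ v w hvk hwk he
  rw [this]

/-- Invariant of a node of the hit tree: the chosen vertices are in the cover `Ce`. -/
def NodeInv (φ : Nat → Nat → α) (k : Nat) (Ce : Finset (Fin 4 × α)) (X b : Nat) : Prop :=
  ∃ Xs : Finset (Fin 4 × α), Xs ⊆ Ce ∧ Xs.card + b = 6 ∧
    (∀ p, X.testBit p = true → (namedMask k).testBit p = true ∧ vtx φ p ∈ Xs) ∧
    (∀ x, x ∈ Xs → ∃ p, X.testBit p = true ∧ vtx φ p = x)

/-- Some new vertex of the cover `Ce` is available in the mask `W`. -/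
def LoopCond (φ : Nat → Nat → α) (k : Nat) (Ce : Finset (Fin 4 × α)) (X W : Nat) : Prop :=
  ∃ p, W.testBit p = true ∧ X.testBit p = false ∧ (namedMask k).testBit p = true ∧ vtx φ p ∈ Ce

theorem NodeInv_eq {Ce : Finset (Fin 4 × α)} (hCe : Ce.card ≤ 6)
    (Xs : Finset (Fin 4 × α)) (h1 : Xs ⊆ Ce) (h2 : Xs.card + 0 = 6) : Xs = Ce :=
  Finset.eq_of_subset_of_card_le h1 (by omega)

open Classical in
theorem NodeInv_step (hinj : InjOn φ k) {Ce : Finset (Fin 4 × α)} {X b l : Nat}
    (h : NodeInv φ k Ce X b) (hb : b ≠ 0) (hl1 : X.testBit l = false)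
    (hl2 : (namedMask k).testBit l = true) (hl3 : vtx φ l ∈ Ce) :
    NodeInv φ k Ce (Nat.lor X (Nat.pow 2 l)) (Nat.sub b 1) := by
  obtain ⟨Xs, h1, h2, h3, h4⟩ := h
  have hnew : vtx φ l ∉ Xs := by
    intro hmem
    obtain ⟨p, hp, he⟩ := h4 _ hmem
    have := vtx_inj hinj (h3 p hp).1 hl2 he
    rw [this, hl1] at hp
    simp at hp
  refine ⟨insert (vtx φ l) Xs, ?_, ?_, ?_, ?_⟩
  · exact Finset.insert_subset hl3 h1
  · rw [Finset.card_insert_of_notMem hnew]
    show _ + (b - 1) = 6
    omega
  · intro p hp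
    simp only [lor_eq, pow_eq, Nat.testBit_or, Nat.testBit_two_pow, Bool.or_eq_true,
      decide_eq_true_eq] at hp
    rcases hp with hp | rfl
    · exact ⟨(h3 p hp).1, Finset.mem_insert_of_mem (h3 p hp).2⟩
    · exact ⟨hl2, Finset.mem_insert_self _ _⟩
  · intro x hx
    rcases Finset.mem_insert.1 hx with rfl | hx
    · refine ⟨l, ?_, rfl⟩
      simp only [lor_eq, pow_eq, Nat.testBit_or, Nat.testBit_two_pow]
      simp
    · obtain ⟨p, hp, he⟩ := h4 x hx
      refine ⟨p, ?_, he⟩
      simp only [lor_eq, Nat.testBit_or, hp, Bool.true_or]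

theorem hitGo_succ (Tm m Em U n s X b W : Nat) :
    hitGo Tm m Em U (n + 1) s X b W =
      sel (Nat.beq W 0) s
        (hitAfter (hitGo Tm m Em U n)
          (hitNode Tm m Em U (hitGo Tm m Em U n) (Nat.shiftRight s 6)
            (Nat.lor X (Nat.pow 2 (Nat.land s 63))) (Nat.sub b 1))
          X b (Nat.xor W (Nat.pow 2 (Nat.land s 63)))) := rfl

/-- All that is known in the check of a hit header, for one new edge `g` outside the mask. -/
structure HitCtx (H : (Fin 4 → α) → Prop) (φ : Nat → Nat → α) (g : Fin 4 → α)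
    (T m k e U Tm : Nat) (Ce : Finset (Fin 4 × α)) : Prop where
  inj : InjOn φ k
  edges : ∀ j, j < m → H (tup φ (codeAt T j))
  wf : ∀ j, j < m → Nat.land (codeMask (codeAt T j)) (namedMask k) = codeMask (codeAt T j)
  tm : Tm = maskTbl T m
  he : e < m
  gH : H g
  gne : g ≠ tup φ (codeAt T e)
  gno : ¬ ∃ c : Fin 4, ∃ v, v < fld k (4 * c.val) ∧ U.testBit (16 * c.val + v) = true ∧ g c = φ c v
  card : Ce.card ≤ 6
  avoid : ∀ i, (i, tup φ (codeAt T e) i) ∉ Ce
  cover : ∀ f, H f → f ≠ tup φ (codeAt T e) → ∃ i, (i, f i) ∈ Ce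

variable {H : (Fin 4 → α) → Prop} {g : Fin 4 → α} {T m e U Tm : Nat} {Ce : Finset (Fin 4 × α)}

theorem HitCtx.field_lt (X : HitCtx H φ g T m k e U Tm Ce) {j : Nat} (hj : j < m) (c : Fin 4) :
    fld (codeAt T j) (4 * c.val) < fld k (4 * c.val) :=
  wf_field (X.wf j hj) c.val c.isLt

theorem codeMask_congr {x y : Nat} (h : ∀ c : Fin 4, fld x (4 * c.val) = fld y (4 * c.val)) :
    codeMask x = codeMask y := by
  have h0 : fld x 0 = fld y 0 := h 0
  have h1 : fld x 4 = fld y 4 := h 1
  have h2 : fld x 8 = fld y 8 := h 2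
  have h3 : fld x 12 = fld y 12 := h 3
  simp only [codeMask, h0, h1, h2, h3]

theorem hitNode_sound (X : HitCtx H φ g T m k e U Tm Ce) {ih : Nat → Nat → Nat → Nat → Nat}
    (hih : ∀ s Y b W, ih s Y b W ≠ 0 → NodeInv φ k Ce Y b → b ≠ 0 → LoopCond φ k Ce Y W → False)
    {s Y b : Nat} (h : hitNode Tm m (maskAt Tm e) U ih s Y b ≠ 0) (hY : NodeInv φ k Ce Y b) :
    False := by
  unfold hitNode at h
  obtain ⟨Xs, h1, h2, h3, h4⟩ := id hY
  cases htok : Nat.beq (Nat.land s 31) 31
  · rw [htok, sel_false] at h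
    obtain ⟨hc, hrest⟩ := sel_ne_zero h
    obtain ⟨ht, hc⟩ := band_eq_true.1 hc
    obtain ⟨hM, hMX⟩ := band_eq_true.1 hc
    have ht' : Nat.land s 31 < m := (ble_true_iff _ _).1 ht
    have hMe := bnot_eq_true.1 hM
    have hMX' := (beq_true_iff _ _).1 hMX
    set t := Nat.land s 31 with htdef
    have hMt : maskAt Tm t = codeMask (codeAt T t) := by rw [X.tm, maskAt_maskTbl _ _ _ ht']
    have hMe' : maskAt Tm e = codeMask (codeAt T e) := by rw [X.tm, maskAt_maskTbl _ _ _ X.he]
    rw [hMt] at hMX' hMe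
    rw [hMe'] at hMe
    -- the edge is not the distinguished one
    have hne : tup φ (codeAt T t) ≠ tup φ (codeAt T e) := by
      intro heq
      have : codeMask (codeAt T t) = codeMask (codeAt T e) := by
        apply codeMask_congr
        intro c
        exact X.inj c _ _ (X.field_lt ht' c) (X.field_lt X.he c) (congrFun heq c)
      rw [this] at hMe
      simp [Nat.beq_refl] at hMe
    obtain ⟨c, hc⟩ := X.cover _ (X.edges t ht') hne
    have hv32 := fld_lt (codeAt T t) (4 * c.val)
    set v := fld (codeAt T t) (4 * c.val) with hvdef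
    set p := 16 * c.val + v with hpdef
    have hvtx : vtx φ p = (c, tup φ (codeAt T t) c) := vtx_pos φ c hv32
    have hpM : (codeMask (codeAt T t)).testBit p = true := codeMask_bit _ c
    have hpX : Y.testBit p = false := by
      have : (Nat.land (codeMask (codeAt T t)) Y).testBit p = false := by rw [hMX']; simp
      simp only [land_eq, Nat.testBit_and, hpM, Bool.true_and] at this
      exact this
    have hpN : (namedMask k).testBit p = true := by
      rw [hpdef, testBit_namedMask k c.val _ c.isLt hv32]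
      simpa using X.field_lt ht' c
    cases hb : Nat.beq b 0
    · rw [hb, sel_false, hMt] at hrest
      refine hih _ _ _ _ hrest hY (fun hb0 => ?_) ⟨p, ?_, hpX, hpN, ?_⟩
      · rw [hb0] at hb; simp at hb
      · simp only [xor_eq, land_eq, Nat.testBit_xor, Nat.testBit_and, hpM, Bool.true_and, hMe']
        have : (codeMask (codeAt T e)).testBit p = false := by
          cases hq : (codeMask (codeAt T e)).testBit p
          · rfl
          · exfalso
            have e1 := (codeMask_bit_iff (codeAt T e) c hv32).1 hq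
            apply X.avoid c
            have : tup φ (codeAt T e) c = tup φ (codeAt T t) c := by
              show φ c _ = φ c _
              rw [← e1]
            rw [this]
            exact hc
        simp [this]
      · rw [hvtx]; exact hc
    · have hb0 : b = 0 := (beq_true_iff _ _).1 hb
      rw [hb0] at h2
      have hXs := NodeInv_eq X.card Xs h1 h2
      have hmem : vtx φ p ∈ Xs := by rw [hXs, hvtx]; exact hc
      obtain ⟨p', hp', he'⟩ := h4 _ hmem
      have := vtx_inj X.inj (h3 p' hp').1 hpN he'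
      rw [this, hpX] at hp'
      simp at hp'
  · rw [htok, sel_true] at h
    obtain ⟨hc, -⟩ := sel_ne_zero h
    obtain ⟨hb, hXU⟩ := band_eq_true.1 hc
    have hb0 : b = 0 := (beq_true_iff _ _).1 hb
    have hXU' := (beq_true_iff _ _).1 hXU
    rw [hb0] at h2
    have hXs := NodeInv_eq X.card Xs h1 h2
    obtain ⟨c, hc⟩ := X.cover g X.gH X.gne
    rw [← hXs] at hc
    obtain ⟨p, hp, he'⟩ := h4 _ hc
    obtain ⟨d, v, hd, hv, rfl, hvk⟩ := testBit_namedMask_exists _ _ (h3 p hp).1
    have hv' := vtx_pos φ ⟨d, hd⟩ hv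
    simp only at hv'
    rw [hv'] at he'
    simp only [Prod.mk.injEq] at he'
    obtain ⟨rfl, he'⟩ := he'
    apply X.gno
    refine ⟨⟨d, hd⟩, v, hvk, ?_, he'.symm⟩
    have : (Nat.land Y U).testBit (16 * d + v) = Y.testBit (16 * d + v) := by rw [hXU']
    simp only [land_eq, Nat.testBit_and, hp, Bool.true_and] at this
    exact this

theorem hitGo_sound (X : HitCtx H φ g T m k e U Tm Ce) (n : Nat) :
    ∀ s Y b W, hitGo Tm m (maskAt Tm e) U n s Y b W ≠ 0 → NodeInv φ k Ce Y b → b ≠ 0 →
      LoopCond φ k Ce Y W → False := by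
  induction n with
  | zero =>
    intro s Y b W h
    exact absurd rfl h
  | succ n ih =>
    intro s Y b W h hY hb hW
    rw [hitGo_succ] at h
    cases hW0 : Nat.beq W 0
    · rw [hW0, sel_false] at h
      unfold hitAfter at h
      cases hs : Nat.beq (hitNode Tm m (maskAt Tm e) U (hitGo Tm m (maskAt Tm e) U n)
          (Nat.shiftRight s 6) (Nat.lor Y (Nat.pow 2 (Nat.land s 63))) (Nat.sub b 1)) 0
      · rw [hs, sel_false] at h
        have hnz : hitNode Tm m (maskAt Tm e) U (hitGo Tm m (maskAt Tm e) U n)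
            (Nat.shiftRight s 6) (Nat.lor Y (Nat.pow 2 (Nat.land s 63))) (Nat.sub b 1) ≠ 0 := by
          intro he
          rw [he] at hs
          simp at hs
        obtain ⟨p, hp1, hp2, hp3, hp4⟩ := hW
        by_cases hpl : p = Nat.land s 63
        · subst hpl
          exact hitNode_sound X ih hnz (NodeInv_step X.inj hY hb hp2 hp3 hp4)
        · exact ih _ _ _ _ h hY hb ⟨p, by rw [testBit_xor_two_pow_ne _ _ _ hpl]; exact hp1, hp2, hp3, hp4⟩
      · rw [hs, sel_true] at h
        exact h rfl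
    · have : W = 0 := (beq_true_iff _ _).1 hW0
      obtain ⟨p, hp1, -⟩ := hW
      rw [this] at hp1
      simp at hp1

end Hit

/-- Soundness of the check of a hit header. -/
theorem hitCheck_sound {h s : Nat} (hc : hitCheck h s ≠ 0) : HitV.{u} h := by
  intro α H hcrit φ hinj hedges g hg hgne
  by_contra hno
  unfold hitCheck hitCheck2 at hc
  obtain ⟨h1, h2⟩ := sel_ne_zero hc
  obtain ⟨he, h1⟩ := band_eq_true.1 h1
  obtain ⟨hwf, -⟩ := band_eq_true.1 h1
  have he' : hE h < hM h := (ble_true_iff _ _).1 he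
  obtain ⟨Ce, hcard, hav, hcov⟩ := hcrit.crit _ (hedges _ he')
  have X : HitCtx H φ g (hT h) (hM h) (hK h) (hE h) (hU h) (maskTbl (hT h) (hM h)) Ce :=
    ⟨hinj, hedges, wfOK_spec _ _ _ hwf, rfl, he', hg, hgne, hno, hcard, hav, hcov⟩
  refine hitNode_sound X (hitGo_sound X _) h2 ⟨∅, by simp, by simp, ?_, ?_⟩
  · intro p hp; simp at hp
  · intro x hx; simp at hx

/-- All hit headers are valid, and then all lemma headers. -/
theorem all_valid {tbl htbl : Nat → Nat} {hN N : Nat}
    (hh : RangeOK (fun j s => hitCheck (htbl j) s) 0 hN)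
    (hl : RangeOK (lemmaCheck tbl htbl hN) 0 N) :
    ∀ i, i < N → Valid.{u} (tbl i) := by
  have hhits : ∀ j, j < hN → HitV.{u} (htbl j) := by
    intro j hj
    obtain ⟨s, hs⟩ := hh j (Nat.zero_le _) hj
    exact hitCheck_sound hs
  intro i
  induction i using Nat.strong_induction_on with
  | _ i ih =>
    intro hi
    obtain ⟨s, hs⟩ := hl i (Nat.zero_le _) hi
    exact lemmaCheck_sound hs (fun j hj => ih j hj (by omega)) hhits

/-- The pattern of one edge: validity of its header means that there is no critical family. -/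
theorem no_crit_of_root {α : Type u} {H : (Fin 4 → α) → Prop} (hH : Crit H)
    (hroot : Valid.{u} 69905) : False := by
  obtain ⟨e, he, -⟩ := hH.noCover ∅ (by simp)
  refine hroot α H hH (fun c _ => if h : c < 4 then e ⟨c, h⟩ else e 0) ?_ ?_
  · intro c v w hv hw _
    have hk : fld (hK 69905) (4 * c.val) = 1 := by
      fin_cases c <;> decide
    rw [hk] at hv hw
    omega
  · intro j hj
    have hm : hM 69905 = 1 := by decide
    rw [hm] at hj
    have hj0 : j = 0 := by omega
    subst hj0
    have : tup (fun c _ => if h : c < 4 then e ⟨c, h⟩ else e 0) (codeAt (hS 69905) 0) = e := by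
      funext i
      simp [tup, i.isLt]
    rw [this]
    exact he

end Vale.Agent.Lib.P045
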