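import Vale.Agent.Lib.P045.Node
import Mathlib.Data.Finset.Card
import Mathlib.Data.Finset.Image
import Mathlib.Data.List.FinRange

/-!
Soundness of the check of a lemma.
-/

namespace Vale.Agent.Lib.P045

universe u

/-! ### Image of a hit mask -/

theorem uLoop_succ (t sc u n acc : Nat) :
    uLoop t sc u (n + 1) acc =
      uLoop t sc u n (sel (Nat.beq (Nat.land (Nat.shiftRight u n) 1) 0) acc
        (Nat.lor acc (Nat.pow 2 (Nat.add (Nat.mul 16 sc) (fld t (Nat.mul 4 n)))))) := rfl

theorem uLoop_keep (t sc u n : Nat) : ∀ acc i, acc.testBit i = true →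
    (uLoop t sc u n acc).testBit i = true := by
  induction n with
  | zero => intro acc i h; exact h
  | succ n ih =>
    intro acc i h
    rw [uLoop_succ]
    apply ih
    cases hb : Nat.beq (Nat.land (Nat.shiftRight u n) 1) 0
    · rw [sel_false]
      simp only [lor_eq, Nat.testBit_or, h, Bool.true_or]
    · rw [sel_true]; exact h

theorem uLoop_new (t sc u n : Nat) : ∀ acc v, v < n → u.testBit v = true →
    (uLoop t sc u n acc).testBit (16 * sc + fld t (4 * v)) = true := by
  induction n with
  | zero => intro acc v hv; omega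
  | succ n ih =>
    intro acc v hv h
    rw [uLoop_succ]
    by_cases hvn : v = n
    · subst hvn
      apply uLoop_keep
      have hbit : Nat.beq (Nat.land (Nat.shiftRight u v) 1) 0 = false := by
        cases hb : Nat.beq (Nat.land (Nat.shiftRight u v) 1) 0
        · rfl
        · exfalso
          have h0 : (u >>> v) &&& 1 = 0 := (beq_true_iff _ _).1 hb
          have h2 := congrArg (fun x => x.testBit 0) h0
          simp [h] at h2
      rw [hbit, sel_false]
      simp only [lor_eq, pow_eq, add_eq, mul_eq, Nat.testBit_or, Nat.testBit_two_pow]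
      simp
    · exact ih _ _ (by omega) h

theorem testBit_mfield (U c v : Nat) (hv : v < 16) :
    (mfield U c).testBit v = U.testBit (16 * c + v) := by
  simp only [mfield, land_eq, shr_eq, mul_eq, Nat.testBit_and, Nat.testBit_shiftRight,
    testBit_65535]
  simp [hv]

theorem uImage_spec {U k' s p : Nat} (c : Fin 4) (v : Nat) (hv : v < 16)
    (hvk : v < fld k' (4 * c.val)) (h : U.testBit (16 * c.val + v) = true) :
    (uImage U k' s p).testBit (16 * pmc p c.val + psi k' s c.val v) = true := by
  unfold uImage
  revert h hvk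
  revert c
  apply fin4_cases
  · intro hvk h
    apply uLoop_keep
    apply uLoop_keep
    apply uLoop_keep
    exact uLoop_new (tab0 k' s) (pmc p 0) (mfield U 0) (fld k' 0) 0 v hvk
      (by rw [testBit_mfield _ _ _ hv]; exact h)
  · intro hvk h
    apply uLoop_keep
    apply uLoop_keep
    exact uLoop_new (tab1 k' s) (pmc p 1) (mfield U 1) (fld k' 4) _ v hvk
      (by rw [testBit_mfield _ _ _ hv]; exact h)
  · intro hvk h
    apply uLoop_keep
    exact uLoop_new (tab2 k' s) (pmc p 2) (mfield U 2) (fld k' 8) _ v hvk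
      (by rw [testBit_mfield _ _ _ hv]; exact h)
  · intro hvk h
    exact uLoop_new (tab3 k' s) (pmc p 3) (mfield U 3) (fld k' 12) _ v hvk
      (by rw [testBit_mfield _ _ _ hv]; exact h)

/-! ### One hint -/

/-- The facts about a lemma world that do not depend on the table of hints. -/
structure Base {α : Type u} (H : (Fin 4 → α) → Prop) (φ : Nat → Nat → α) (g : Fin 4 → α)
    (tbl htbl : Nat → Nat) (hN i S m k named Sm D0 : Nat) : Prop where
  crit : Crit H
  inj : InjOn φ k
  gH : H g
  edges : ∀ j, j < m → H (tup φ (codeAt S j))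
  wf : ∀ j, j < m → Nat.land (codeMask (codeAt S j)) named = codeMask (codeAt S j)
  named_eq : named = namedMask k
  sm_eq : Sm = maskTbl S m
  valid : ∀ j, j < i → Valid.{u} (tbl j)
  hits : ∀ j, j < hN → HitV.{u} (htbl j)
  mpos : 1 ≤ m
  inv : Inv φ k g D0

section Hints

variable {α : Type u} {H : (Fin 4 → α) → Prop} {φ : Nat → Nat → α} {g : Fin 4 → α}
  {tbl htbl : Nat → Nat} {hN i S m k named Sm D0 : Nat}

theorem Base.inj_named (B : Base H φ g tbl htbl hN i S m k named Sm D0) :
    ∀ c : Fin 4, ∀ v w, v < 16 → w < 16 → named.testBit (16 * c.val + v) = true →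
      named.testBit (16 * c.val + w) = true → φ c v = φ c w → v = w := by
  intro c v w hv hw h1 h2 he
  rw [B.named_eq, testBit_namedMask k c.val _ c.isLt hv] at h1
  rw [B.named_eq, testBit_namedMask k c.val _ c.isLt hw] at h2
  exact B.inj c v w (by simpa using h1) (by simpa using h2) he

/-- The image of the distinguished edge under the map of a stream. -/
theorem eImg_eq (h' p s : Nat) : eImg h' p s = codeMask (imgS (hK h') s p (codeAt (hT h') (hE h'))) :=
  rfl

theorem hint_hits (B : Base H φ g tbl htbl hN i S m k named Sm D0) {h' p s : Nat}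
    (hV : HitV.{u} h')
    (hmap : mapCheck S (Nat.sub m 1) named (hK h') (hM h') (hT h') p s ≠ 0)
    (h1 : Nat.land (eImg h' p s) named = eImg h' p s)
    (h2 : bnot (Nat.beq (Nat.land (eImg h' p s) D0) (eImg h' p s)) = true)
    (h3 : Nat.land (uImage (hU h') (hK h') s p) named = uImage (hU h') (hK h') s p) :
    Hits φ k g (uImage (hU h') (hK h') s p) := by
  obtain ⟨hp, a1, a2, a3⟩ := mapCheck_spec hmap
  have hmpos := B.mpos
  have hedges : ∀ j, j < hM h' → permH (pmE hp) H (tup (phiC φ (hK h') s p) (codeAt (hT h') j)) :=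
    mapped_edges hp (fun tg htg => B.edges tg (by
      have : tg ≤ m - 1 := htg
      omega)) a3
  have hinj : InjOn (phiC φ (hK h') s p) (hK h') := phiC_inj B.inj_named a1 a2
  have hg' : permH (pmE hp) H (fun i => g (pmE hp i)) := permH_comp _ _ _ B.gH
  -- the new edge differs from the distinguished edge
  have hne : (fun i => g (pmE hp i)) ≠ tup (phiC φ (hK h') s p) (codeAt (hT h') (hE h')) := by
    intro he
    have hbne := bnot_eq_true.1 h2
    apply Bool.eq_false_iff.1 hbne
    refine (beq_true_iff _ _).2 ?_
    rw [eImg_eq] at h1 ⊢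
    set y := imgS (hK h') s p (codeAt (hT h') (hE h')) with hy
    have hwf : ∀ c : Fin 4, fld y (4 * c.val) < fld k (4 * c.val) := by
      intro c
      rw [B.named_eq] at h1
      exact wf_field h1 c.val c.isLt
    have hval : ∀ d : Fin 4, φ d (fld y (4 * d.val)) = g d := by
      intro d
      have h5 := congrFun he ((pmE hp).symm d)
      simp only [Equiv.apply_symm_apply] at h5
      rw [h5, tup_phiC hp]
      rfl
    apply Nat.eq_of_testBit_eq
    intro b
    simp only [land_eq, Nat.testBit_and]
    cases hbit : (codeMask y).testBit b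
    · simp
    · obtain ⟨c, hc, hb⟩ := testBit_codeMask_exists _ _ hbit
      have hcd := cd_eq_of B.inj (c := ⟨c, hc⟩) (hwf ⟨c, hc⟩) (hval ⟨c, hc⟩)
      have := B.inv ⟨c, hc⟩
      rw [show gb φ k g ⟨c, hc⟩ = 16 * c + cd φ k g ⟨c, hc⟩ from rfl, hcd] at this
      rw [hb]
      simpa using this
  obtain ⟨c, v, hvk, hUb, he⟩ := hV α _ (B.crit.perm (pmE hp)) _ hinj hedges _ hg' hne
  have hv : v < 16 := lt_trans hvk (fld_lt _ _)
  set U' := uImage (hU h') (hK h') s p with hU'
  have hbit : U'.testBit (16 * pmc p c.val + psi (hK h') s c.val v) = true :=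
    uImage_spec c v hv hvk hUb
  have hnamed : named.testBit (16 * pmc p c.val + psi (hK h') s c.val v) = true := by
    have : (Nat.land U' named).testBit (16 * pmc p c.val + psi (hK h') s c.val v) =
        U'.testBit (16 * pmc p c.val + psi (hK h') s c.val v) := by rw [h3]
    simp only [land_eq, Nat.testBit_and, hbit] at this
    simpa using this
  refine ⟨pmE hp c, ?_⟩
  have hy32 : psi (hK h') s c.val v < 16 := fld_lt _ _
  rw [B.named_eq, testBit_namedMask k _ _ (pmc_lt _ _) hy32] at hnamed
  have hval : φ (pmE hp c) (psi (hK h') s c.val v) = g (pmE hp c) := he.symm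
  have hcd := cd_eq_of B.inj (c := pmE hp c) (by rw [pmE_val]; simpa using hnamed) hval
  rw [show gb φ k g (pmE hp c) = 16 * (pmE hp c).val + cd φ k g (pmE hp c) from rfl, hcd]
  exact hbit

/-- One step of the loop over the hints. -/
theorem hintUse_sound (B : Base H φ g tbl htbl hN i S m k named Sm D0) {j nH : Nat}
    {ih : Nat → Nat → Nat} {s Us : Nat}
    (hih : ∀ s Us, ih s Us ≠ 0 → (∀ h, j ≤ h → h < nH → Hits φ k g (maskAt Us h)) → False)
    (h : hintUse htbl hN S m named D0 s j ih Us ≠ 0)
    (hUs : ∀ h, j + 1 ≤ h → h < nH → Hits φ k g (maskAt Us h)) : False := by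
  unfold hintUse at h
  obtain ⟨h1, h2⟩ := sel_ne_zero h
  unfold hintUse2 at h2
  obtain ⟨h3, h4⟩ := sel_ne_zero h2
  obtain ⟨h5, h3⟩ := band_eq_true.1 h3
  obtain ⟨h6, h3⟩ := band_eq_true.1 h3
  obtain ⟨h7, h8⟩ := band_eq_true.1 h3
  have hs' := bnot_eq_true.1 h5
  have hmap : mapCheck S (Nat.sub m 1) named (hK (htbl (Nat.land s 65535)))
      (hM (htbl (Nat.land s 65535))) (hT (htbl (Nat.land s 65535)))
      (Nat.land (Nat.shiftRight s 16) 255) (Nat.shiftRight s 24) ≠ 0 := by
    intro he
    rw [he] at hs'
    simp at hs'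
  have hhit := hint_hits B (B.hits _ ((ble_true_iff _ _).1 h1)) hmap
    ((beq_true_iff _ _).1 h6) h7 ((beq_true_iff _ _).1 h8)
  refine hih _ _ h4 ?_
  intro b hb1 hb2
  by_cases hbj : b = j
  · subst hbj
    obtain ⟨c, hc⟩ := hhit
    exact ⟨c, testBit_maskAt_new _ _ _ _ (gb_lt c) hc⟩
  · obtain ⟨c, hc⟩ := hUs b (by omega) hb2
    exact ⟨c, testBit_maskAt_mono _ _ _ _ hc⟩

theorem hintsLoop_sound (B : Base H φ g tbl htbl hN i S m k named Sm D0) (nH fuel n : Nat) :
    ∀ s Us, hintsLoop tbl htbl hN i S m named Sm D0 nH fuel n s Us ≠ 0 →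
      (∀ h, n ≤ h → h < nH → Hits φ k g (maskAt Us h)) → False := by
  induction n with
  | zero =>
    intro s Us h hUs
    have X : Ctx H φ g tbl i S m k named Sm Us nH :=
      ⟨B.crit, B.inj, B.gH, B.edges, B.wf, B.named_eq, B.sm_eq, B.valid,
        fun h hh => hUs h (Nat.zero_le _) hh⟩
    exact node_sound X (go_sound X fuel) h B.inv
  | succ n ih =>
    intro s Us h hUs
    exact hintUse_sound B ih h hUs

end Hints

/-! ### The listed vertices -/

/-- The listed vertices of a stream. -/
def cItems : Nat → Nat → List Nat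
  | 0, _ => []
  | n + 1, s => Nat.land s 63 :: cItems n (Nat.shiftRight s 6)

theorem cItems_length (n : Nat) : ∀ s, (cItems n s).length = n := by
  induction n with
  | zero => intro s; rfl
  | succ n ih => intro s; simp [cItems, ih]

theorem cRemove_succ (named n s D : Nat) :
    cRemove named (n + 1) s D =
      sel (Nat.beq (Nat.land named (Nat.pow 2 (Nat.land s 63))) 0) 0
        (cRemove named n (Nat.shiftRight s 6) (Nat.xor D (Nat.pow 2 (Nat.land s 63)))) := rfl

theorem cRemove_named (named n : Nat) : ∀ s D, cRemove named n s D ≠ 0 →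
    ∀ p, p ∈ cItems n s → named.testBit p = true := by
  induction n with
  | zero => intro s D _ p hp; simp [cItems] at hp
  | succ n ih =>
    intro s D h p hp
    rw [cRemove_succ] at h
    cases hb : Nat.beq (Nat.land named (Nat.pow 2 (Nat.land s 63))) 0
    · rw [hb, sel_false] at h
      simp only [cItems, List.mem_cons] at hp
      rcases hp with rfl | hp
      · have hne : Nat.land named (Nat.pow 2 (Nat.land s 63)) ≠ 0 := by
          intro he
          rw [he] at hb
          simp at hb
        by_contra hbit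
        apply hne
        apply Nat.eq_of_testBit_eq
        intro i
        simp only [land_eq, pow_eq, Nat.testBit_and, Nat.testBit_two_pow, Nat.zero_testBit]
        by_cases hi : s &&& 63 = i
        · subst hi
          have : named.testBit (s &&& 63) = false := by simpa using hbit
          simp [this]
        · simp [hi]
      · exact ih _ _ h p hp
    · rw [hb, sel_true] at h
      exact absurd rfl h

theorem cRemove_inv {α : Type u} {φ : Nat → Nat → α} {k : Nat} {g : Fin 4 → α} (named n : Nat) :
    ∀ s D, (∀ c, ∀ p, p ∈ cItems n s → gb φ k g c ≠ p) → cRemove named n s D ≠ 0 →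
      Inv φ k g D → Inv φ k g (cRemove named n s D) := by
  induction n with
  | zero => intro s D _ _ h; exact h
  | succ n ih =>
    intro s D hg h hD
    rw [cRemove_succ] at h ⊢
    cases hb : Nat.beq (Nat.land named (Nat.pow 2 (Nat.land s 63))) 0
    · rw [hb, sel_false] at h
      rw [sel_false]
      apply ih _ _ (fun c p hp => hg c p (List.mem_cons_of_mem _ hp)) h
      exact Inv_xor hD (fun c => hg c _ List.mem_cons_self)
    · rw [hb, sel_true] at h
      exact absurd rfl h

/-- A position in a mask as a vertex. -/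
def vtx {α : Type u} (φ : Nat → Nat → α) (p : Nat) : Fin 4 × α :=
  (Fin.ofNat 4 (p / 16), φ (p / 16) (p % 16))

theorem wfOK_spec (S named n : Nat) (h : wfOK S named n = true) :
    ∀ j, j < n → Nat.land (codeMask (codeAt S j)) named = codeMask (codeAt S j) := by
  induction n with
  | zero => intro j hj; omega
  | succ n ih =>
    intro j hj
    have h' : band (Nat.beq (Nat.land (codeMask (codeAt S n)) named) (codeMask (codeAt S n)))
        (wfOK S named n) = true := h
    obtain ⟨h1, h2⟩ := band_eq_true.1 h'
    by_cases hjn : j = n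
    · subst hjn; exact (beq_true_iff _ _).1 h1
    · exact ih h2 j (by omega)

open Classical in
/-- Soundness of the check of one lemma. -/
theorem lemmaCheck_sound {tbl htbl : Nat → Nat} {hN i s : Nat}
    (h : lemmaCheck tbl htbl hN i s ≠ 0)
    (hvalid : ∀ j, j < i → Valid.{u} (tbl j))
    (hhits : ∀ j, j < hN → HitV.{u} (htbl j)) : Valid.{u} (tbl i) := by
  intro α H hcrit φ hinj hedges
  unfold lemmaCheck lemma3 at h
  set k := hK (tbl i) with hk
  set S := hS (tbl i) with hS'
  set m := hM (tbl i) with hm
  obtain ⟨h1, h2⟩ := sel_ne_zero h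
  obtain ⟨hm1, h1⟩ := band_eq_true.1 h1
  obtain ⟨hwf, hn⟩ := band_eq_true.1 h1
  cases hb : Nat.beq (cRemove (namedMask k) (Nat.land s 7) (Nat.shiftRight s 3)
      (Nat.lor (namedMask k) (codeMask k))) 0
  · rw [hb, sel_false] at h2
    have hne : cRemove (namedMask k) (Nat.land s 7) (Nat.shiftRight s 3)
        (Nat.lor (namedMask k) (codeMask k)) ≠ 0 := by
      intro he
      rw [he] at hb
      simp at hb
    have hcard : (((cItems (Nat.land s 7) (Nat.shiftRight s 3)).map (vtx φ)).toFinset).card ≤ 6 := by
      refine (List.toFinset_card_le _).trans ?_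
      rw [List.length_map, cItems_length]
      exact (ble_true_iff _ _).1 hn
    obtain ⟨g, hg, hav⟩ := hcrit.noCover _ hcard
    have hnamedItems := cRemove_named _ _ _ _ hne
    have hgp : ∀ c, ∀ p, p ∈ cItems (Nat.land s 7) (Nat.shiftRight s 3) → gb φ k g c ≠ p := by
      intro c p hp he
      obtain ⟨d, v, hd, hv, hpe, hvk⟩ := testBit_namedMask_exists _ _ (hnamedItems p hp)
      rw [hpe] at he
      obtain ⟨hcd, hcv⟩ := gb_eq_pos hv he
      apply hav c
      have hmem : vtx φ p ∈ (cItems (Nat.land s 7) (Nat.shiftRight s 3)).map (vtx φ) :=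
        List.mem_map_of_mem hp
      have hvtx : vtx φ p = (c, g c) := by
        have e1 : p / 16 = d := by omega
        have e2 : p % 16 = v := by omega
        unfold vtx
        rw [e1, e2]
        have hvk' : v < fld k (4 * c.val) := by rw [hcd]; exact hvk
        have hφ : φ c.val v = g c := by
          rcases cd_spec φ k g c with h' | h'
          · rw [hcv] at h'; exact h'.2
          · omega
        rw [← hcd, hφ]
        congr 1
        apply Fin.ext
        simp [Fin.ofNat, Nat.mod_eq_of_lt c.isLt]
      rw [hvtx] at hmem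
      exact List.mem_toFinset.2 hmem
    have hinvFull : Inv φ k g (Nat.lor (namedMask k) (codeMask k)) := by
      intro c
      rw [show gb φ k g c = 16 * c.val + cd φ k g c from rfl]
      simp only [lor_eq, Nat.testBit_or]
      rcases cd_spec φ k g c with h' | h'
      · rw [testBit_namedMask k c.val _ c.isLt (cd_lt_16 φ k g c)]
        simp [h'.1]
      · rw [h'.1, testBit_codeMask k c.val _ c.isLt (fld_lt _ _)]
        simp
    have B : Base H φ g tbl htbl hN i S m k (namedMask k) (maskTbl S m)
        (cRemove (namedMask k) (Nat.land s 7) (Nat.shiftRight s 3)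
          (Nat.lor (namedMask k) (codeMask k))) :=
      ⟨hcrit, hinj, hg, hedges, wfOK_spec _ _ _ hwf, rfl, rfl, hvalid, hhits,
        (ble_true_iff _ _).1 hm1, cRemove_inv _ _ _ _ hgp hne hinvFull⟩
    refine hintsLoop_sound B _ _ _ _ _ h2 ?_
    intro b hb1 hb2
    omega
  · rw [hb, sel_true] at h2
    exact h2 rfl

end Vale.Agent.Lib.P045
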