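import Vale.Agent.Lib.P045.Bits
import Vale.Agent.Lib.P045.Crit
import Mathlib.Logic.Equiv.Fintype
import Mathlib.Data.Fintype.EquivFin

/-!
What the map checks of the checker mean.
-/

namespace Vale.Agent.Lib.P045

universe u

theorem fin4_cases {P : Fin 4 → Prop} (h0 : P 0) (h1 : P 1) (h2 : P 2) (h3 : P 3) : ∀ c, P c := by
  intro c
  fin_cases c
  · exact h0
  · exact h1
  · exact h2
  · exact h3

/-- The tuple with names from the code `x`. -/
def tup {α : Type u} (φ : Nat → Nat → α) (x : Nat) : Fin 4 → α := fun i => φ i (fld x (4 * i.val))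

/-- The function `φ` is injective on the names below `k c`, in each coordinate `c`. -/
def InjOn {α : Type u} (φ : Nat → Nat → α) (k : Nat) : Prop :=
  ∀ c : Fin 4, ∀ v w, v < fld k (4 * c.val) → w < fld k (4 * c.val) → φ c v = φ c w → v = w

/-- A lemma header is valid when no critical family contains its pattern. -/
def Valid (h : Nat) : Prop :=
  ∀ (α : Type u) (H : (Fin 4 → α) → Prop), Crit H → ∀ φ : Nat → Nat → α, InjOn φ (hK h) →
    (∀ j, j < hM h → H (tup φ (codeAt (hS h) j))) → False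

/-- A hit header is valid when each edge other than the distinguished one meets the mask. -/
def HitV (h : Nat) : Prop :=
  ∀ (α : Type u) (H : (Fin 4 → α) → Prop), Crit H → ∀ φ : Nat → Nat → α, InjOn φ (hK h) →
    (∀ j, j < hM h → H (tup φ (codeAt (hT h) j))) →
    ∀ g, H g → g ≠ tup φ (codeAt (hT h) (hE h)) →
      ∃ c : Fin 4, ∃ v, v < fld (hK h) (4 * c.val) ∧ (hU h).testBit (16 * c.val + v) = true ∧
        g c = φ c v

/-! ### Coordinate maps -/

/-- The target coordinate of `c` in the packed map `p`. -/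
def pmc (p c : Nat) : Nat := Nat.land (Nat.shiftRight p (2 * c)) 3

theorem pmc_lt (p c : Nat) : pmc p c < 4 := by
  have : (Nat.land (Nat.shiftRight p (2 * c)) 3) ≤ 3 := Nat.and_le_right
  simpa [pmc] using Nat.lt_succ_of_le this

theorem pm0_eq (p : Nat) : pm0 p = pmc p 0 := by simp [pm0, pmc]
theorem pm1_eq (p : Nat) : pm1 p = pmc p 1 := rfl
theorem pm2_eq (p : Nat) : pm2 p = pmc p 2 := rfl
theorem pm3_eq (p : Nat) : pm3 p = pmc p 3 := rfl

/-- The target coordinate as an element of `Fin 4`. -/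
def pmF (p : Nat) (c : Fin 4) : Fin 4 := ⟨pmc p c.val, pmc_lt p c.val⟩

theorem perm_aux0 : ∀ a b c d : Fin 4,
    (2 ^ a.val ||| (2 ^ b.val ||| (2 ^ c.val ||| 2 ^ d.val)) : Nat) = 15 →
    a ≠ b ∧ a ≠ c ∧ a ≠ d ∧ b ≠ c ∧ b ≠ d ∧ c ≠ d := by
  decide

theorem perm_aux (a : Nat) (ha : a < 4) (b : Nat) (hb : b < 4) (c : Nat) (hc : c < 4)
    (d : Nat) (hd : d < 4) (h : (2 ^ a ||| (2 ^ b ||| (2 ^ c ||| 2 ^ d)) : Nat) = 15) :
    a ≠ b ∧ a ≠ c ∧ a ≠ d ∧ b ≠ c ∧ b ≠ d ∧ c ≠ d := by
  obtain ⟨h1, h2, h3, h4, h5, h6⟩ := perm_aux0 ⟨a, ha⟩ ⟨b, hb⟩ ⟨c, hc⟩ ⟨d, hd⟩ h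
  simp only [ne_eq, Fin.mk.injEq] at h1 h2 h3 h4 h5 h6
  exact ⟨h1, h2, h3, h4, h5, h6⟩

theorem permOK_inj {p : Nat} (h : permOK p = true) : Function.Injective (pmF p) := by
  have h1 := (beq_true_iff _ _).1 h
  simp only [lor_eq, pow_eq, pm0_eq, pm1_eq, pm2_eq, pm3_eq] at h1
  obtain ⟨h01, h02, h03, h12, h13, h23⟩ :=
    perm_aux _ (pmc_lt p 0) _ (pmc_lt p 1) _ (pmc_lt p 2) _ (pmc_lt p 3) h1
  intro a b hab
  have hab' : pmc p a.val = pmc p b.val := congrArg Fin.val hab
  fin_cases a <;> fin_cases b <;> first | rfl | (exfalso; simp at hab'; omega)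

/-- The permutation of coordinates of a packed map. -/
noncomputable def pmE {p : Nat} (h : permOK p = true) : Equiv.Perm (Fin 4) :=
  Equiv.ofBijective (pmF p) ((Finite.injective_iff_bijective).1 (permOK_inj h))

theorem pmE_val {p : Nat} (h : permOK p = true) (c : Fin 4) : (pmE h c).val = pmc p c.val := rfl

/-! ### Name tables -/

theorem fld_shift4 (t v : Nat) : fld (t >>> 4) (4 * v) = fld t (4 * (v + 1)) := by
  rw [fld_eq, fld_eq, ← Nat.shiftRight_add]
  congr 2
  omega

theorem fld_zero_eq (t : Nat) : fld t (4 * 0) = Nat.land t 15 := by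
  simp [fld_eq]

theorem tblOK_succ (sc allowed n t seen : Nat) :
    tblOK sc allowed (n + 1) t seen =
      band (Nat.beq (Nat.land seen (Nat.pow 2 (Nat.land t 15))) 0)
        (tblOK sc allowed n (Nat.shiftRight t 4) (Nat.lor seen (Nat.pow 2 (Nat.land t 15)))) := rfl

theorem tblOK_zero (sc allowed t seen : Nat) :
    tblOK sc allowed 0 t seen = Nat.beq (Nat.land (Nat.shiftLeft seen (Nat.mul 16 sc)) allowed)
      (Nat.shiftLeft seen (Nat.mul 16 sc)) := rfl

theorem tblOK_spec (sc allowed n : Nat) : ∀ t seen, tblOK sc allowed n t seen = true →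
    (∀ v, v < n → seen.testBit (fld t (4 * v)) = false) ∧
    (∀ v w, v < n → w < n → fld t (4 * v) = fld t (4 * w) → v = w) ∧
    (∀ v, v < n → allowed.testBit (16 * sc + fld t (4 * v)) = true) ∧
    (∀ i, seen.testBit i = true → allowed.testBit (16 * sc + i) = true) := by
  induction n with
  | zero =>
    intro t seen h
    rw [tblOK_zero] at h
    have h1 := (beq_true_iff _ _).1 h
    simp only [land_eq, shl_eq, mul_eq] at h1
    refine ⟨by intro v hv; omega, by intro v w hv; omega, by intro v hv; omega, ?_⟩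
    intro i hi
    have h2 : ((seen <<< (16 * sc)) &&& allowed).testBit (16 * sc + i) =
        (seen <<< (16 * sc)).testBit (16 * sc + i) := by rw [h1]
    rw [Nat.testBit_and, Nat.testBit_shiftLeft] at h2
    simpa [hi] using h2
  | succ n ih =>
    intro t seen h
    rw [tblOK_succ] at h
    obtain ⟨h1, h2⟩ := band_eq_true.1 h
    have h1' := (beq_true_iff _ _).1 h1
    simp only [land_eq, pow_eq, lor_eq, shr_eq] at h1' h2
    obtain ⟨a1, a2, a3, a4⟩ := ih _ _ h2
    set y := t &&& 15 with hy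
    have hy0 : fld t (4 * 0) = y := by simp [fld_eq, hy]
    have hyseen : seen.testBit y = false := by
      have : (seen &&& 2 ^ y).testBit y = false := by rw [h1']; simp
      rw [Nat.testBit_and, Nat.testBit_two_pow] at this
      simpa using this
    have hyin : ∀ v, v < n → fld t (4 * (v + 1)) ≠ y := by
      intro v hv he
      have := a1 v hv
      rw [fld_shift4, he, Nat.testBit_or, Nat.testBit_two_pow] at this
      simp at this
    refine ⟨?_, ?_, ?_, ?_⟩
    · intro v hv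
      rcases v with _ | v
      · rw [hy0]; exact hyseen
      · have := a1 v (by omega)
        rw [fld_shift4, Nat.testBit_or] at this
        simp only [Bool.or_eq_false_iff] at this
        exact this.1
    · intro v w hv hw he
      rcases v with _ | v <;> rcases w with _ | w
      · rfl
      · rw [hy0] at he
        exact absurd he.symm (hyin w (by omega))
      · rw [hy0] at he
        exact absurd he (hyin v (by omega))
      · have := a2 v w (by omega) (by omega) (by rw [fld_shift4, fld_shift4]; exact he)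
        omega
    · intro v hv
      rcases v with _ | v
      · rw [hy0]
        apply a4
        rw [Nat.testBit_or, Nat.testBit_two_pow]
        simp
      · have := a3 v (by omega)
        rwa [fld_shift4] at this
    · intro i hi
      apply a4
      rw [Nat.testBit_or, hi]
      simp

/-! ### The image of a code -/

theorem fld_or (x y p : Nat) : fld (x ||| y) p = fld x p ||| fld y p := by
  simp only [fld_eq, Nat.shiftRight_or_distrib, Nat.and_or_distrib_right]

theorem fld_shl_self (a q : Nat) (ha : a < 16) : fld (a <<< q) q = a := by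
  apply Nat.eq_of_testBit_eq
  intro i
  rw [testBit_fld, Nat.testBit_shiftLeft]
  by_cases hi : i < 4
  · simp [hi]
  · have : a.testBit i = false := testBit_lt_two_pow' (a := 4) (by simpa using ha) (by omega)
    simp [hi, this]

theorem fld_shl_ne (a σ τ : Nat) (ha : a < 16) (hne : σ ≠ τ) : fld (a <<< (4 * σ)) (4 * τ) = 0 := by
  apply Nat.eq_of_testBit_eq
  intro i
  rw [testBit_fld, Nat.testBit_shiftLeft, Nat.zero_testBit]
  by_cases hi : i < 4
  · by_cases h : 4 * σ ≤ 4 * τ + i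
    · have hlt : σ < τ ∨ σ = τ := by omega
      rcases hlt with hlt | hlt
      · have : a.testBit (4 * τ + i - 4 * σ) = false :=
          testBit_lt_two_pow' (a := 4) (by simpa using ha) (by omega)
        simp [this]
      · exact absurd hlt hne
    · simp [h]
  · simp [hi]

theorem fld_img (t0 t1 t2 t3 q0 q1 q2 q3 x τ : Nat) :
    fld (img t0 t1 t2 t3 (Nat.mul 4 q0) (Nat.mul 4 q1) (Nat.mul 4 q2) (Nat.mul 4 q3) x) (4 * τ) =
      (fld (fld t0 (4 * fld x 0) <<< (4 * q0)) (4 * τ)) |||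
      ((fld (fld t1 (4 * fld x 4) <<< (4 * q1)) (4 * τ)) |||
      ((fld (fld t2 (4 * fld x 8) <<< (4 * q2)) (4 * τ)) |||
       (fld (fld t3 (4 * fld x 12) <<< (4 * q3)) (4 * τ)))) := by
  simp only [img, lor_eq, shl_eq, mul_eq, fld_or]

/-- The table number `c` of a stream. -/
def tabN (k' s c : Nat) : Nat :=
  match c with
  | 0 => tab0 k' s
  | 1 => tab1 k' s
  | 2 => tab2 k' s
  | _ => tab3 k' s

/-- The name table as a function. -/
def psi (k' s c v : Nat) : Nat := fld (tabN k' s c) (4 * v)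

/-- The image code of `x` with the tables of a stream. -/
def imgS (k' s p x : Nat) : Nat :=
  img (tab0 k' s) (tab1 k' s) (tab2 k' s) (tab3 k' s)
    (Nat.mul 4 (pm0 p)) (Nat.mul 4 (pm1 p)) (Nat.mul 4 (pm2 p)) (Nat.mul 4 (pm3 p)) x

theorem fld_imgS {k' s p : Nat} (hp : permOK p = true) (c : Fin 4) (x : Nat) :
    fld (imgS k' s p x) (4 * pmc p c.val) = psi k' s c.val (fld x (4 * c.val)) := by
  have hinj := permOK_inj hp
  have hne : ∀ a b : Fin 4, a ≠ b → pmc p a.val ≠ pmc p b.val := by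
    intro a b hab he
    exact hab (hinj (Fin.ext he))
  have h01 := hne 0 1 (by decide)
  have h02 := hne 0 2 (by decide)
  have h03 := hne 0 3 (by decide)
  have h12 := hne 1 2 (by decide)
  have h13 := hne 1 3 (by decide)
  have h23 := hne 2 3 (by decide)
  change pmc p 0 ≠ pmc p 1 at h01
  change pmc p 0 ≠ pmc p 2 at h02
  change pmc p 0 ≠ pmc p 3 at h03
  change pmc p 1 ≠ pmc p 2 at h12
  change pmc p 1 ≠ pmc p 3 at h13
  change pmc p 2 ≠ pmc p 3 at h23
  revert c
  apply fin4_cases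
  · show fld (imgS k' s p x) (4 * pmc p 0) = fld (tab0 k' s) (4 * fld x 0)
    simp only [imgS, pm0_eq, pm1_eq, pm2_eq, pm3_eq]
    rw [fld_img, fld_shl_self _ _ (fld_lt _ _), fld_shl_ne _ _ _ (fld_lt _ _) h01.symm,
      fld_shl_ne _ _ _ (fld_lt _ _) h02.symm, fld_shl_ne _ _ _ (fld_lt _ _) h03.symm]
    simp
  · show fld (imgS k' s p x) (4 * pmc p 1) = fld (tab1 k' s) (4 * fld x 4)
    simp only [imgS, pm0_eq, pm1_eq, pm2_eq, pm3_eq]
    rw [fld_img, fld_shl_self _ _ (fld_lt _ _), fld_shl_ne _ _ _ (fld_lt _ _) h01,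
      fld_shl_ne _ _ _ (fld_lt _ _) h12.symm, fld_shl_ne _ _ _ (fld_lt _ _) h13.symm]
    simp
  · show fld (imgS k' s p x) (4 * pmc p 2) = fld (tab2 k' s) (4 * fld x 8)
    simp only [imgS, pm0_eq, pm1_eq, pm2_eq, pm3_eq]
    rw [fld_img, fld_shl_self _ _ (fld_lt _ _), fld_shl_ne _ _ _ (fld_lt _ _) h02,
      fld_shl_ne _ _ _ (fld_lt _ _) h12, fld_shl_ne _ _ _ (fld_lt _ _) h23.symm]
    simp
  · show fld (imgS k' s p x) (4 * pmc p 3) = fld (tab3 k' s) (4 * fld x 12)
    simp only [imgS, pm0_eq, pm1_eq, pm2_eq, pm3_eq]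
    rw [fld_img, fld_shl_self _ _ (fld_lt _ _), fld_shl_ne _ _ _ (fld_lt _ _) h03,
      fld_shl_ne _ _ _ (fld_lt _ _) h13, fld_shl_ne _ _ _ (fld_lt _ _) h23]
    simp

/-! ### What a map check gives -/

theorem edgesOK_spec (T lim t0 t1 t2 t3 s0 s1 s2 s3 S' n : Nat) : ∀ s,
    edgesOK T lim t0 t1 t2 t3 s0 s1 s2 s3 S' n s ≠ 0 →
    ∀ j, j < n → ∃ tg, tg ≤ lim ∧ img t0 t1 t2 t3 s0 s1 s2 s3 (codeAt S' j) = codeAt T tg := by
  induction n with
  | zero => intro s _ j hj; omega
  | succ n ih =>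
    intro s h j hj
    have h' : sel (band (Nat.ble (Nat.land s 31) lim)
            (Nat.beq (img t0 t1 t2 t3 s0 s1 s2 s3 (codeAt S' n)) (codeAt T (Nat.land s 31))))
        (edgesOK T lim t0 t1 t2 t3 s0 s1 s2 s3 S' n (Nat.shiftRight s 5)) 0 ≠ 0 := h
    obtain ⟨h1, h2⟩ := sel_ne_zero h'
    obtain ⟨h3, h4⟩ := band_eq_true.1 h1
    by_cases hjn : j = n
    · subst hjn
      exact ⟨_, (ble_true_iff _ _).1 h3, (beq_true_iff _ _).1 h4⟩
    · exact ih _ h2 j (by omega)

/-- What the success of a map check gives. -/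
theorem mapCheck_spec {T lim allowed k' n S' p s : Nat}
    (h : mapCheck T lim allowed k' n S' p s ≠ 0) :
    permOK p = true ∧
    (∀ c : Fin 4, ∀ v w, v < fld k' (4 * c.val) → w < fld k' (4 * c.val) →
      psi k' s c.val v = psi k' s c.val w → v = w) ∧
    (∀ c : Fin 4, ∀ v, v < fld k' (4 * c.val) →
      allowed.testBit (16 * pmc p c.val + psi k' s c.val v) = true) ∧
    (∀ j, j < n → ∃ tg, tg ≤ lim ∧ imgS k' s p (codeAt S' j) = codeAt T tg) := by
  unfold mapCheck at h
  obtain ⟨h1, h2⟩ := sel_ne_zero h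
  obtain ⟨hp, h1⟩ := band_eq_true.1 h1
  obtain ⟨h0', h1⟩ := band_eq_true.1 h1
  obtain ⟨h1', h1⟩ := band_eq_true.1 h1
  obtain ⟨h2', h3'⟩ := band_eq_true.1 h1
  obtain ⟨-, a0, b0, -⟩ := tblOK_spec _ _ _ _ _ h0'
  obtain ⟨-, a1, b1, -⟩ := tblOK_spec _ _ _ _ _ h1'
  obtain ⟨-, a2, b2, -⟩ := tblOK_spec _ _ _ _ _ h2'
  obtain ⟨-, a3, b3, -⟩ := tblOK_spec _ _ _ _ _ h3'
  refine ⟨hp, ?_, ?_, ?_⟩
  · apply fin4_cases
    · exact a0
    · exact a1
    · exact a2
    · exact a3
  · apply fin4_cases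
    · intro v hv; have := b0 v hv; rwa [pm0_eq] at this
    · intro v hv; have := b1 v hv; rwa [pm1_eq] at this
    · intro v hv; have := b2 v hv; rwa [pm2_eq] at this
    · intro v hv; have := b3 v hv; rwa [pm3_eq] at this
  · exact edgesOK_spec _ _ _ _ _ _ _ _ _ _ _ _ _ h2

/-- The map to a child world, composed with a name function `φ'`. -/
def phiC {α : Type u} (φ' : Nat → Nat → α) (k' s p : Nat) : Nat → Nat → α :=
  fun c v => φ' (pmc p c) (psi k' s c v)

theorem phiC_inj {α : Type u} {φ' : Nat → Nat → α} {k' s p allowed : Nat}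
    (hinj : ∀ c : Fin 4, ∀ v w, v < 16 → w < 16 → allowed.testBit (16 * c.val + v) = true →
      allowed.testBit (16 * c.val + w) = true → φ' c v = φ' c w → v = w)
    (h1 : ∀ c : Fin 4, ∀ v w, v < fld k' (4 * c.val) → w < fld k' (4 * c.val) →
      psi k' s c.val v = psi k' s c.val w → v = w)
    (h2 : ∀ c : Fin 4, ∀ v, v < fld k' (4 * c.val) →
      allowed.testBit (16 * pmc p c.val + psi k' s c.val v) = true) :
    InjOn (phiC φ' k' s p) k' := by
  intro c v w hv hw he
  apply h1 c v w hv hw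
  exact hinj ⟨pmc p c.val, pmc_lt _ _⟩ _ _ (fld_lt _ _) (fld_lt _ _) (h2 c v hv) (h2 c w hw) he

theorem tup_phiC {α : Type u} {φ' : Nat → Nat → α} {k' s p : Nat} (hp : permOK p = true)
    (x : Nat) (i : Fin 4) :
    tup (phiC φ' k' s p) x ((pmE hp).symm i) = tup φ' (imgS k' s p x) i := by
  have hval : pmc p ((pmE hp).symm i).val = i.val := by
    rw [← pmE_val hp]; simp
  show φ' (pmc p ((pmE hp).symm i).val) (psi k' s ((pmE hp).symm i).val
      (fld x (4 * ((pmE hp).symm i).val))) = φ' i.val (fld (imgS k' s p x) (4 * i.val))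
  rw [hval]
  congr 1
  rw [← fld_imgS hp, hval]

/-- The edges of the child world lie in the permuted family. -/
theorem mapped_edges {α : Type u} {H : (Fin 4 → α) → Prop} {φ' : Nat → Nat → α}
    {T lim k' n S' p s : Nat} (hp : permOK p = true)
    (hT : ∀ tg, tg ≤ lim → H (tup φ' (codeAt T tg)))
    (hE : ∀ j, j < n → ∃ tg, tg ≤ lim ∧ imgS k' s p (codeAt S' j) = codeAt T tg) :
    ∀ j, j < n → permH (pmE hp) H (tup (phiC φ' k' s p) (codeAt S' j)) := by
  intro j hj
  obtain ⟨tg, htg, he⟩ := hE j hj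
  have := hT tg htg
  rw [← he] at this
  show H (fun i => tup (phiC φ' k' s p) (codeAt S' j) ((pmE hp).symm i))
  have e : (fun i => tup (phiC φ' k' s p) (codeAt S' j) ((pmE hp).symm i)) =
      tup φ' (imgS k' s p (codeAt S' j)) := by
    funext i
    exact tup_phiC hp _ i
  rw [e]
  exact this

end Vale.Agent.Lib.P045
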