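import Vale.Agent.Lib.P045.Maps

/-!
Soundness of the decision tree of a lemma.
-/

namespace Vale.Agent.Lib.P045

universe u

section Code

variable {α : Type u} (φ : Nat → Nat → α) (k : Nat) (g : Fin 4 → α)

open Classical in
/-- The name of the vertex `g c`, or the count of names if it is not named. -/
noncomputable def cd (c : Fin 4) : Nat :=
  if h : ∃ v, v < fld k (4 * c.val) ∧ φ c v = g c then Classical.choose h else fld k (4 * c.val)

theorem cd_spec (c : Fin 4) :
    (cd φ k g c < fld k (4 * c.val) ∧ φ c (cd φ k g c) = g c) ∨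
    (cd φ k g c = fld k (4 * c.val) ∧ ∀ v, v < fld k (4 * c.val) → φ c v ≠ g c) := by
  unfold cd
  by_cases h : ∃ v, v < fld k (4 * c.val) ∧ φ c v = g c
  · left
    rw [dif_pos h]
    exact Classical.choose_spec h
  · right
    rw [dif_neg h]
    refine ⟨rfl, fun v hv he => h ⟨v, hv, he⟩⟩

theorem cd_lt_16 (c : Fin 4) : cd φ k g c < 16 := by
  rcases cd_spec φ k g c with h | h
  · exact lt_trans h.1 (fld_lt _ _)
  · rw [h.1]; exact fld_lt _ _

variable {φ k g}

theorem cd_eq_of (hinj : InjOn φ k) {c : Fin 4} {v : Nat} (hv : v < fld k (4 * c.val))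
    (he : φ c v = g c) : cd φ k g c = v := by
  rcases cd_spec φ k g c with h | h
  · exact hinj c _ _ h.1 hv (h.2.trans he.symm)
  · exact absurd he (h.2 v hv)

variable (φ k g)

/-- The position of the vertex `g c` in a mask. -/
noncomputable def gb (c : Fin 4) : Nat := 16 * c.val + cd φ k g c

/-- The domain `D` allows `g`. -/
def Inv (D : Nat) : Prop := ∀ c : Fin 4, D.testBit (gb φ k g c) = true

/-- The mask `W` holds one of the vertices of `g`. -/
def Hits (W : Nat) : Prop := ∃ c : Fin 4, W.testBit (gb φ k g c) = true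

variable {φ k g}

theorem gb_lt (c : Fin 4) : gb φ k g c < 64 := by
  have := cd_lt_16 φ k g c
  have hc := c.isLt
  unfold gb
  omega

theorem gb_eq_pos {c : Fin 4} {d v : Nat} (hv : v < 16) (h : gb φ k g c = 16 * d + v) :
    c.val = d ∧ cd φ k g c = v := by
  have := cd_lt_16 φ k g c
  unfold gb at h
  omega

theorem Inv_assign {D : Nat} (h : Inv φ k g D) (c : Fin 4) :
    Inv φ k g (assign D (gb φ k g c)) := by
  intro d
  by_cases hdc : d = c
  · subst hdc
    exact testBit_assign_same D d.val _ (cd_lt_16 φ k g d)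
  · have hne : d.val ≠ c.val := fun e => hdc (Fin.ext e)
    rw [show gb φ k g c = 16 * c.val + cd φ k g c from rfl,
      show gb φ k g d = 16 * d.val + cd φ k g d from rfl,
      testBit_assign_other D c.val _ d.val _ (cd_lt_16 φ k g c) (cd_lt_16 φ k g d) hne]
    exact h d

theorem Inv_xor {D k' : Nat} (h : Inv φ k g D) (hne : ∀ c, gb φ k g c ≠ k') :
    Inv φ k g (Nat.xor D (Nat.pow 2 k')) := by
  intro c
  rw [testBit_xor_two_pow_ne D k' _ (hne c)]
  exact h c

/-- The step of the loop over the bits of `W`. -/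
theorem loop_step {D W k' : Nat} (h : Inv φ k g D) (hW : Hits φ k g W) :
    (∃ c, gb φ k g c = k' ∧ Inv φ k g (assign D k')) ∨
    (Inv φ k g (Nat.xor D (Nat.pow 2 k')) ∧ Hits φ k g (Nat.xor W (Nat.pow 2 k'))) := by
  by_cases hk : ∃ c, gb φ k g c = k'
  · obtain ⟨c, hc⟩ := hk
    left
    refine ⟨c, hc, ?_⟩
    rw [← hc]
    exact Inv_assign h c
  · right
    have hne : ∀ c, gb φ k g c ≠ k' := fun c he => hk ⟨c, he⟩
    refine ⟨Inv_xor h hne, ?_⟩
    obtain ⟨c, hc⟩ := hW
    refine ⟨c, ?_⟩
    rw [testBit_xor_two_pow_ne W k' _ (hne c)]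
    exact hc

theorem Hits_land {A D : Nat} (h : Inv φ k g D) (hA : Hits φ k g A) :
    Hits φ k g (Nat.land A D) := by
  obtain ⟨c, hc⟩ := hA
  refine ⟨c, ?_⟩
  simp only [land_eq, Nat.testBit_and, hc, h c, Bool.and_self]

theorem Hits_land_ne_zero {A D : Nat} (h : Inv φ k g D) (hA : Hits φ k g A) :
    Nat.land A D ≠ 0 := by
  obtain ⟨c, hc⟩ := Hits_land h hA
  intro he
  rw [he] at hc
  simp at hc

end Code

/-- Fields of well-formed codes are named. -/
theorem wf_field {x k : Nat} (h : Nat.land (codeMask x) (namedMask k) = codeMask x) (c : Nat)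
    (hc : c < 4) : fld x (4 * c) < fld k (4 * c) := by
  have hv := fld_lt x (4 * c)
  have h1 := testBit_codeMask x c _ hc hv
  have h2 : (Nat.land (codeMask x) (namedMask k)).testBit (16 * c + fld x (4 * c)) =
      (codeMask x).testBit (16 * c + fld x (4 * c)) := by rw [h]
  simp only [land_eq, Nat.testBit_and, h1, testBit_namedMask k c _ hc hv] at h2
  simpa using h2

/-- The mask of a code has the bit of each coordinate. -/
theorem codeMask_bit (x : Nat) (c : Fin 4) :
    (codeMask x).testBit (16 * c.val + fld x (4 * c.val)) = true := by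
  rw [testBit_codeMask x c.val _ c.isLt (fld_lt _ _)]
  simp

/-- Masks of codes with the same bit have the same name there. -/
theorem codeMask_bit_iff (x : Nat) (c : Fin 4) {v : Nat} (hv : v < 16) :
    (codeMask x).testBit (16 * c.val + v) = true ↔ v = fld x (4 * c.val) := by
  rw [testBit_codeMask x c.val _ c.isLt hv]
  simp

/-- The context of the check of one lemma: the family, the names, the new edge `g`, the tables. -/
structure Ctx {α : Type u} (H : (Fin 4 → α) → Prop) (φ : Nat → Nat → α) (g : Fin 4 → α)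
    (tbl : Nat → Nat) (i S m k named Sm Us nH : Nat) : Prop where
  crit : Crit H
  inj : InjOn φ k
  gH : H g
  edges : ∀ j, j < m → H (tup φ (codeAt S j))
  wf : ∀ j, j < m → Nat.land (codeMask (codeAt S j)) named = codeMask (codeAt S j)
  named_eq : named = namedMask k
  sm_eq : Sm = maskTbl S m
  valid : ∀ j, j < i → Valid.{u} (tbl j)
  us : ∀ h, h < nH → Hits φ k g (maskAt Us h)

section Steps

variable {α : Type u} {H : (Fin 4 → α) → Prop} {φ : Nat → Nat → α} {g : Fin 4 → α}
  {tbl : Nat → Nat} {i S m k named Sm Us nH : Nat}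

theorem Ctx.field_lt (X : Ctx H φ g tbl i S m k named Sm Us nH) {j : Nat} (hj : j < m)
    (c : Fin 4) : fld (codeAt S j) (4 * c.val) < fld k (4 * c.val) := by
  have := X.wf j hj
  rw [X.named_eq] at this
  exact wf_field this c.val c.isLt

theorem Ctx.hit_of_eq (X : Ctx H φ g tbl i S m k named Sm Us nH) {j : Nat} (hj : j < m)
    {c : Fin 4} (he : tup φ (codeAt S j) c = g c) :
    (codeMask (codeAt S j)).testBit (gb φ k g c) = true := by
  have h1 : cd φ k g c = fld (codeAt S j) (4 * c.val) := cd_eq_of X.inj (X.field_lt hj c) he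
  rw [show gb φ k g c = 16 * c.val + cd φ k g c from rfl, h1]
  exact codeMask_bit _ c

/-- Disjoint masks of edges mean disjoint edges. -/
theorem Ctx.disj (X : Ctx H φ g tbl i S m k named Sm Us nH) {a b : Nat} (ha : a < m) (hb : b < m)
    (hd : Nat.land (codeMask (codeAt S a)) (codeMask (codeAt S b)) = 0) :
    Disj (tup φ (codeAt S a)) (tup φ (codeAt S b)) := by
  intro c he
  have h1 := X.inj c _ _ (X.field_lt ha c) (X.field_lt hb c) he
  have h2 := codeMask_bit (codeAt S a) c
  have h3 := codeMask_bit (codeAt S b) c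
  rw [← h1] at h3
  have h4 : (Nat.land (codeMask (codeAt S a)) (codeMask (codeAt S b))).testBit
      (16 * c.val + fld (codeAt S a) (4 * c.val)) = true := by
    simp only [land_eq, Nat.testBit_and, h2, h3, Bool.and_self]
  rw [hd] at h4
  simp at h4

theorem split_sound (X : Ctx H φ g tbl i S m k named Sm Us nH)
    {ih : Nat → Nat → Nat → Nat}
    (hih : ∀ s D W, ih s D W ≠ 0 → Inv φ k g D → Hits φ k g W → False)
    {s D : Nat} (h : splitStep Sm m ih s D ≠ 0) (hD : Inv φ k g D) : False := by
  unfold splitStep at h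
  obtain ⟨h1, h2⟩ := sel_ne_zero h
  obtain ⟨ha, h1⟩ := band_eq_true.1 h1
  obtain ⟨hb, hd⟩ := band_eq_true.1 h1
  have ha' : Nat.land s 31 < m := (ble_true_iff _ _).1 ha
  have hb' : Nat.land (Nat.shiftRight s 5) 31 < m := (ble_true_iff _ _).1 hb
  have hd' := (beq_true_iff _ _).1 hd
  rw [X.sm_eq, maskAt_maskTbl _ _ _ ha', maskAt_maskTbl _ _ _ hb'] at hd'
  refine hih _ _ _ h2 hD (Hits_land hD ?_)
  rw [X.sm_eq, maskAt_maskTbl _ _ _ ha', maskAt_maskTbl _ _ _ hb']
  have hdisj := X.disj ha' hb' hd'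
  by_contra hno
  refine X.crit.nu _ _ _ (X.edges _ ha') (X.edges _ hb') X.gH hdisj ?_ ?_
  · intro c he
    apply hno
    refine ⟨c, ?_⟩
    simp only [lor_eq, Nat.testBit_or, X.hit_of_eq ha' he, Bool.true_or]
  · intro c he
    apply hno
    refine ⟨c, ?_⟩
    simp only [lor_eq, Nat.testBit_or, X.hit_of_eq hb' he, Bool.or_true]

theorem enum_sound {ih : Nat → Nat → Nat → Nat}
    (hih : ∀ s D W, ih s D W ≠ 0 → Inv φ k g D → Hits φ k g W → False)
    {s D : Nat} (h : enumStep ih s D ≠ 0) (hD : Inv φ k g D) : False := by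
  unfold enumStep at h
  have hc : s &&& 3 < 4 := Nat.lt_succ_of_le Nat.and_le_right
  refine hih _ _ _ h hD ⟨⟨s &&& 3, hc⟩, ?_⟩
  simp only [land_eq, shl_eq, mul_eq, Nat.testBit_and]
  rw [hD ⟨s &&& 3, hc⟩]
  rw [show gb φ k g ⟨s &&& 3, hc⟩ = 16 * (s &&& 3) + cd φ k g ⟨s &&& 3, hc⟩ from rfl,
    testBit_fieldMask _ _ _ (cd_lt_16 φ k g _)]
  simp

theorem hint_sound (X : Ctx H φ g tbl i S m k named Sm Us nH)
    {s D : Nat} (h : hintStep Us nH s D ≠ 0) (hD : Inv φ k g D) : False := by
  unfold hintStep at h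
  obtain ⟨h1, -⟩ := sel_ne_zero h
  obtain ⟨h2, h3⟩ := band_eq_true.1 h1
  exact Hits_land_ne_zero hD (X.us _ ((ble_true_iff _ _).1 h2)) ((beq_true_iff _ _).1 h3)

/-- The new name function of an arc. -/
def phiN (φ : Nat → Nat → α) (k : Nat) (g : Fin 4 → α) : Nat → Nat → α :=
  fun c v => if h : c < 4 ∧ v = fld k (4 * c) then g ⟨c, h.1⟩ else φ c v

theorem phiN_named {c : Fin 4} {v : Nat} (hv : v < fld k (4 * c.val)) :
    phiN φ k g c v = φ c v := by
  unfold phiN
  have : ¬ (c.val < 4 ∧ v = fld k (4 * c.val)) := by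
    rintro ⟨-, h⟩; omega
  rw [dif_neg this]

theorem phiN_cd (c : Fin 4) : phiN φ k g c (cd φ k g c) = g c := by
  rcases cd_spec φ k g c with h | h
  · rw [phiN_named h.1, h.2]
  · unfold phiN
    have : (c.val < 4 ∧ cd φ k g c = fld k (4 * c.val)) := ⟨c.isLt, h.1⟩
    rw [dif_pos this]

theorem tup_phiN_named {x : Nat} (hx : ∀ c : Fin 4, fld x (4 * c.val) < fld k (4 * c.val)) :
    tup (phiN φ k g) x = tup φ x := by
  funext c
  exact phiN_named (hx c)

theorem phiN_inj (hinj : InjOn φ k) {D : Nat} (hq : ∀ c : Fin 4, ∀ v, v < 16 →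
    D.testBit (16 * c.val + v) = true → v = cd φ k g c) :
    ∀ c : Fin 4, ∀ v w, v < 16 → w < 16 →
      (Nat.lor (namedMask k) D).testBit (16 * c.val + v) = true →
      (Nat.lor (namedMask k) D).testBit (16 * c.val + w) = true →
      phiN φ k g c v = phiN φ k g c w → v = w := by
  intro c v w hv hw h1 h2 he
  simp only [lor_eq, Nat.testBit_or, testBit_namedMask k c.val _ c.isLt hv,
    testBit_namedMask k c.val _ c.isLt hw, Bool.or_eq_true, decide_eq_true_eq] at h1 h2
  have hcase : ∀ u, u < 16 → (u < fld k (4 * c.val) ∨ D.testBit (16 * c.val + u) = true) →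
      (u < fld k (4 * c.val)) ∨ u = cd φ k g c := by
    intro u hu h
    rcases h with h | h
    · exact Or.inl h
    · exact Or.inr (hq c u hu h)
  rcases hcase v hv h1 with hv' | hv' <;> rcases hcase w hw h2 with hw' | hw'
  · rw [phiN_named hv', phiN_named hw'] at he
    exact hinj c v w hv' hw' he
  · rw [phiN_named hv', hw', phiN_cd] at he
    rw [hw']
    exact (cd_eq_of hinj hv' he).symm
  · rw [hv', phiN_cd, phiN_named hw'] at he
    rw [hv']
    exact cd_eq_of hinj hw' he.symm
  · rw [hv', hw']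

theorem arc_sound (X : Ctx H φ g tbl i S m k named Sm Us nH)
    {s D : Nat} (h : arcStep tbl i S m named s D ≠ 0) (hD : Inv φ k g D) : False := by
  unfold arcStep at h
  obtain ⟨h1, h2⟩ := sel_ne_zero h
  obtain ⟨hj, hq⟩ := band_eq_true.1 h1
  have hj' := (ble_true_iff _ _).1 hj
  have hq' := (beq_true_iff _ _).1 hq
  obtain ⟨hp, a1, a2, a3⟩ := mapCheck_spec h2
  set q := Nat.land s 65535 with hqdef
  have hqlt : q < 2 ^ 16 := land_65535_lt s
  -- the code of g is q
  have hqc : ∀ c : Fin 4, ∀ v, v < 16 → D.testBit (16 * c.val + v) = true → v = cd φ k g c := by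
    intro c v hv hb
    rw [← hq'] at hb
    have e1 := (codeMask_bit_iff q c hv).1 hb
    have hb2 := hD c
    rw [← hq', show gb φ k g c = 16 * c.val + cd φ k g c from rfl] at hb2
    have e2 := (codeMask_bit_iff q c (cd_lt_16 φ k g c)).1 hb2
    rw [e1, e2]
  have hcd : ∀ c : Fin 4, fld q (4 * c.val) = cd φ k g c := by
    intro c
    have hb2 := hD c
    rw [← hq', show gb φ k g c = 16 * c.val + cd φ k g c from rfl] at hb2
    exact ((codeMask_bit_iff q c (cd_lt_16 φ k g c)).1 hb2).symm
  have hchild := X.valid _ hj'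
  -- apply the child lemma
  have hnamed := X.named_eq
  have hinj' := phiN_inj X.inj hqc
  rw [← hnamed] at hinj'
  refine hchild α (permH (pmE hp) H) (X.crit.perm _) (phiC (phiN φ k g) _ _ _)
    (phiC_inj hinj' a1 a2) (mapped_edges hp ?_ a3)
  intro tg htg
  rcases tg with _ | t
  · rw [codeAt_shift_zero _ _ hqlt]
    have : tup (phiN φ k g) q = g := by
      funext c
      show phiN φ k g c (fld q (4 * c.val)) = g c
      rw [hcd c, phiN_cd]
    rw [this]
    exact X.gH
  · rw [codeAt_shift_succ _ _ _ hqlt]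
    have ht : t < m := by omega
    rw [tup_phiN_named (X.field_lt ht)]
    exact X.edges _ ht

theorem node_sound (X : Ctx H φ g tbl i S m k named Sm Us nH)
    {ih : Nat → Nat → Nat → Nat}
    (hih : ∀ s D W, ih s D W ≠ 0 → Inv φ k g D → Hits φ k g W → False)
    {s D : Nat} (h : nodeStep tbl i S m named Sm Us nH ih s D ≠ 0) (hD : Inv φ k g D) : False := by
  unfold nodeStep at h
  cases hb1 : Nat.beq (Nat.land s 1) 0 <;> cases hb2 : Nat.beq (Nat.land s 2) 0 <;>
    rw [hb1, hb2] at h <;> simp only [sel_true, sel_false] at h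
  · exact hint_sound X h hD
  · exact arc_sound X h hD
  · exact enum_sound hih h hD
  · exact split_sound X hih h hD

theorem go_succ (tbl : Nat → Nat) (i S m named Sm Us nH n s D W : Nat) :
    go tbl i S m named Sm Us nH (n + 1) s D W =
      sel (Nat.beq W 0) s
        (goAfter (go tbl i S m named Sm Us nH n)
          (nodeStep tbl i S m named Sm Us nH (go tbl i S m named Sm Us nH n) (Nat.shiftRight s 6)
            (assign D (Nat.land s 63)))
          (Nat.xor D (Nat.pow 2 (Nat.land s 63)))
          (Nat.xor W (Nat.pow 2 (Nat.land s 63)))) := rfl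

theorem go_sound (X : Ctx H φ g tbl i S m k named Sm Us nH) (n : Nat) :
    ∀ s D W, go tbl i S m named Sm Us nH n s D W ≠ 0 → Inv φ k g D → Hits φ k g W → False := by
  induction n with
  | zero =>
    intro s D W h
    exact absurd rfl h
  | succ n ih =>
    intro s D W h hD hW
    rw [go_succ] at h
    cases hb : Nat.beq W 0
    · rw [hb, sel_false] at h
      unfold goAfter at h
      cases hb2 : Nat.beq (nodeStep tbl i S m named Sm Us nH (go tbl i S m named Sm Us nH n)
            (Nat.shiftRight s 6) (assign D (Nat.land s 63))) 0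
      · rw [hb2, sel_false] at h
        have hnz : nodeStep tbl i S m named Sm Us nH (go tbl i S m named Sm Us nH n)
            (Nat.shiftRight s 6) (assign D (Nat.land s 63)) ≠ 0 := by
          intro he
          rw [he] at hb2
          simp at hb2
        rcases loop_step (k' := Nat.land s 63) hD hW with ⟨c, -, hA⟩ | ⟨hD', hW'⟩
        · exact node_sound X ih hnz hA
        · exact ih _ _ _ h hD' hW'
      · rw [hb2, sel_true] at h
        exact h rfl
    · have hW0 : W = 0 := (beq_true_iff _ _).1 hb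
      obtain ⟨c, hc⟩ := hW
      rw [hW0] at hc
      simp at hc

end Steps

end Vale.Agent.Lib.P045
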