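import Vale.Agent.Lib.P045.HitS

/-!
The final reduction: successful runs of the checker give the covering theorem.
-/

namespace Vale.Agent.Lib.P045

universe u

/-- Successful checks, with the root lemma among them, give the theorem. -/
theorem cover_of_checks {tbl htbl : Nat → Nat} {hN N root : Nat}
    (hh : RangeOK (fun j s => hitCheck (htbl j) s) 0 hN)
    (hl : RangeOK (lemmaCheck tbl htbl hN) 0 N)
    (hroot : root < N) (hr : tbl root = 69905)
    {α : Type u} (H : Finset (Fin 4 → α))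
    (hν : ∀ a ∈ H, ∀ b ∈ H, ∀ c ∈ H,
      (∀ i, a i ≠ b i) → (∀ i, a i ≠ c i) → (∀ i, b i ≠ c i) → False) :
    ∃ C : Finset (Fin 4 × α), C.card ≤ 6 ∧ ∀ e ∈ H, ∃ i, (i, e i) ∈ C := by
  by_contra hno
  have hno' : ∀ C : Finset (Fin 4 × α), C.card ≤ 6 → ∃ e ∈ H, ∀ i, (i, e i) ∉ C := by
    intro C hC
    by_contra hcon
    apply hno
    refine ⟨C, hC, fun e he => ?_⟩
    by_contra hcon2
    apply hcon
    exact ⟨e, he, fun i hi => hcon2 ⟨i, hi⟩⟩
  obtain ⟨H', hH'⟩ := exists_crit H hν hno'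
  have hv := all_valid.{u} hh hl root hroot
  rw [hr] at hv
  exact no_crit_of_root hH' hv

end Vale.Agent.Lib.P045
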